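import Mathlib

/-!
# P088, two metrics, row QM: pointwise bounds of jets
-/

open MeasureTheory Set
open scoped ContDiff Matrix

noncomputable section

namespace Vale.Agent.P088.HY.QM

section jets

variable {E : Type*} [NormedAddCommGroup E] [NormedSpace ℝ E]

/-- The derivatives of `f` at `z` up to the order `k` are bounded by `a`. -/
def Jb (k : ℕ) (a : ℝ) (f : E → ℝ) (z : E) : Prop := ∀ l ≤ k, ‖iteratedFDeriv ℝ l f z‖ ≤ a

variable {k : ℕ} {a b : ℝ} {f g : E → ℝ} {z : E}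

theorem Jb.nonneg (h : Jb k a f z) : 0 ≤ a := (norm_nonneg _).trans (h 0 (Nat.zero_le _))

theorem Jb.mono (h : Jb k a f z) (hab : a ≤ b) : Jb k b f z := fun l hl => (h l hl).trans hab

theorem Jb.ord {k' : ℕ} (h : Jb k a f z) (hk : k' ≤ k) : Jb k' a f z := fun l hl =>
  h l (hl.trans hk)

theorem Jb.abs (h : Jb k a f z) : |f z| ≤ a := by
  have := h 0 (Nat.zero_le _)
  rwa [norm_iteratedFDeriv_zero, Real.norm_eq_abs] at this

theorem Jb.add (hf : ContDiff ℝ ∞ f) (hg : ContDiff ℝ ∞ g) (h : Jb k a f z) (h' : Jb k b g z) :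
    Jb k (a + b) (fun w => f w + g w) z := by
  intro l hl
  have : (fun w => f w + g w) = f + g := rfl
  rw [this, iteratedFDeriv_add_apply (hf.of_le (by exact_mod_cast le_top)).contDiffAt
    (hg.of_le (by exact_mod_cast le_top)).contDiffAt]
  exact (norm_add_le _ _).trans (add_le_add (h l hl) (h' l hl))

theorem Jb.neg (h : Jb k a f z) : Jb k a (fun w => - f w) z := by
  intro l hl
  have : (fun w => - f w) = -f := rfl
  rw [this, iteratedFDeriv_neg_apply, norm_neg]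
  exact h l hl

theorem Jb.sub (hf : ContDiff ℝ ∞ f) (hg : ContDiff ℝ ∞ g) (h : Jb k a f z) (h' : Jb k b g z) :
    Jb k (a + b) (fun w => f w - g w) z := by
  simp only [sub_eq_add_neg]
  exact Jb.add hf hg.neg h h'.neg

theorem Jb.mul (hf : ContDiff ℝ ∞ f) (hg : ContDiff ℝ ∞ g) (h : Jb k a f z) (h' : Jb k b g z) :
    Jb k (2 ^ k * (a * b)) (fun w => f w * g w) z := by
  intro l hl
  have ha := h.nonneg
  have hb := h'.nonneg
  refine (norm_iteratedFDeriv_mul_le (N := ∞) hf hg z (by exact_mod_cast le_top)).trans ?_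
  calc ∑ i ∈ Finset.range (l + 1), (l.choose i : ℝ) * ‖iteratedFDeriv ℝ i f z‖ *
        ‖iteratedFDeriv ℝ (l - i) g z‖
      ≤ ∑ i ∈ Finset.range (l + 1), (l.choose i : ℝ) * (a * b) := by
        apply Finset.sum_le_sum
        intro i hi
        have hi' : i ≤ l := Nat.lt_succ_iff.mp (Finset.mem_range.mp hi)
        rw [mul_assoc]
        apply mul_le_mul_of_nonneg_left _ (Nat.cast_nonneg _)
        exact mul_le_mul (h i (hi'.trans hl)) (h' (l - i) ((Nat.sub_le _ _).trans hl))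
          (norm_nonneg _) ha
    _ = 2 ^ l * (a * b) := by
        rw [← Finset.sum_mul]
        congr 1
        exact_mod_cast Nat.sum_range_choose l
    _ ≤ 2 ^ k * (a * b) := by
        apply mul_le_mul_of_nonneg_right _ (mul_nonneg ha hb)
        exact pow_le_pow_right₀ (by norm_num) hl

theorem Jb.sum {ι : Type*} (s : Finset ι) {f : ι → E → ℝ} (hf : ∀ i, ContDiff ℝ ∞ (f i))
    (h : ∀ i ∈ s, Jb k a (f i) z) :
    Jb k (s.card * a) (fun w => ∑ i ∈ s, f i w) z := by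
  classical
  intro l hl
  induction s using Finset.induction_on with
  | empty =>
    simp only [Finset.sum_empty, Finset.card_empty, Nat.cast_zero, zero_mul]
    rw [iteratedFDeriv_fun_zero]
    simp
  | insert i s hi ih =>
    have e : (fun w => ∑ i ∈ insert i s, f i w) = (f i) + (fun w => ∑ i ∈ s, f i w) := by
      funext w; simp [Finset.sum_insert hi]
    have hs : ContDiff ℝ ∞ (fun w => ∑ i ∈ s, f i w) := ContDiff.sum fun i _ => hf i
    rw [e, iteratedFDeriv_add_apply ((hf i).of_le (by exact_mod_cast le_top)).contDiffAt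
      (hs.of_le (by exact_mod_cast le_top)).contDiffAt]
    refine (norm_add_le _ _).trans ?_
    rw [Finset.card_insert_of_notMem hi]
    push_cast
    have h1 := h i (Finset.mem_insert_self _ _) l hl
    have h2 := ih fun j hj => h j (Finset.mem_insert_of_mem hj)
    linarith

theorem Jb.const (c : ℝ) : Jb k |c| (fun _ : E => c) z := by
  intro l _
  rcases Nat.eq_zero_or_pos l with rfl | hl
  · rw [norm_iteratedFDeriv_zero, Real.norm_eq_abs]
  · rw [iteratedFDeriv_const_of_ne (Nat.pos_iff_ne_zero.mp hl)]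
    simp

/-- Composition with a continuous linear map of norm at most one. -/
theorem Jb.comp_clm {F : Type*} [NormedAddCommGroup F] [NormedSpace ℝ F] {f : F → ℝ}
    (hf : ContDiff ℝ ∞ f) (L : E →L[ℝ] F) (hL : ‖L‖ ≤ 1) (h : Jb k a f (L z)) :
    Jb k a (fun w => f (L w)) z := by
  intro l hl
  have e : (fun w => f (L w)) = f ∘ L := rfl
  rw [e, L.iteratedFDeriv_comp_right hf z (by exact_mod_cast le_top)]
  refine ((iteratedFDeriv ℝ l f (L z)).norm_compContinuousLinearMap_le _).trans ?_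
  have : ∏ _i : Fin l, ‖L‖ ≤ 1 := by
    rw [Finset.prod_const]
    exact pow_le_one₀ (norm_nonneg _) hL
  calc ‖iteratedFDeriv ℝ l f (L z)‖ * ∏ _i : Fin l, ‖L‖
      ≤ ‖iteratedFDeriv ℝ l f (L z)‖ * 1 :=
        mul_le_mul_of_nonneg_left this (norm_nonneg _)
    _ ≤ a := by rw [mul_one]; exact h l hl

/-- Jets of a continuous linear functional. -/
theorem Jb.clm (L : E →L[ℝ] ℝ) (h0 : |L z| ≤ a) (h1 : ‖L‖ ≤ a) : Jb k a (fun w => L w) z := by
  intro l _
  have ha : 0 ≤ a := (abs_nonneg _).trans h0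
  rcases l with _ | _ | l
  · rw [norm_iteratedFDeriv_zero, Real.norm_eq_abs]; exact h0
  · rw [zero_add, norm_iteratedFDeriv_one]
    rw [show fderiv ℝ (fun w => L w) z = L from L.fderiv]
    exact h1
  · have h2 : ‖iteratedFDeriv ℝ (l + 1) (fderiv ℝ fun w => L w) z‖ = ‖iteratedFDeriv ℝ (l + 1 + 1) (fun w => L w) z‖ :=
      norm_iteratedFDeriv_fderiv
    rw [← h2]
    have h3 : (fderiv ℝ fun w => L w) = fun _ => L := by
      funext w; exact L.fderiv
    rw [h3, iteratedFDeriv_const_of_ne (Nat.succ_ne_zero l)]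
    simpa using ha

/-- The directional derivative. -/
theorem Jb.dir (hf : ContDiff ℝ ∞ f) (v : E) (hv : ‖v‖ ≤ 1) (h : Jb (k + 1) a f z) :
    Jb k a (fun w => fderiv ℝ f w v) z := by
  intro l hl
  have hf' : ContDiff ℝ ∞ (fderiv ℝ f) := hf.fderiv_right (by simp)
  have e : (fun w => fderiv ℝ f w v) = (ContinuousLinearMap.apply ℝ ℝ v) ∘ (fderiv ℝ f) := by
    funext w; rfl
  rw [e, (ContinuousLinearMap.apply ℝ ℝ v).iteratedFDeriv_comp_left
    (hf'.contDiffAt (x := z)) (by exact_mod_cast le_top)]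
  refine (ContinuousLinearMap.norm_compContinuousMultilinearMap_le _ _).trans ?_
  have h1 : ‖ContinuousLinearMap.apply ℝ ℝ v‖ ≤ 1 := by
    refine ContinuousLinearMap.opNorm_le_bound _ zero_le_one fun w => ?_
    rw [ContinuousLinearMap.apply_apply, one_mul]
    exact (w.le_opNorm v).trans (mul_le_of_le_one_right (norm_nonneg _) hv)
  rw [norm_iteratedFDeriv_fderiv]
  calc ‖ContinuousLinearMap.apply ℝ ℝ v‖ * ‖iteratedFDeriv ℝ (l + 1) f z‖
      ≤ 1 * ‖iteratedFDeriv ℝ (l + 1) f z‖ :=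
        mul_le_mul_of_nonneg_right h1 (norm_nonneg _)
    _ ≤ a := by rw [one_mul]; exact h (l + 1) (by omega)

/-- Bound of `1 / f`. -/
theorem Jb.inv_aux (k : ℕ) (B : ℝ) : ∃ C : ℝ, 0 ≤ C ∧ ∀ (E : Type) [NormedAddCommGroup E]
    [NormedSpace ℝ E] (f : E → ℝ), ContDiff ℝ ∞ f → (∀ x, 0 < f x) → ∀ x, (f x)⁻¹ ≤ B →
    Jb k B f x → Jb k C (fun x => (f x)⁻¹) x := by
  have hΨ : ContDiffOn ℝ ∞ (fun y : ℝ => y⁻¹) (Ioi 0) :=
    contDiffOn_id.inv fun y hy => ne_of_gt hy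
  have ht : IsOpen (Ioi (0 : ℝ)) := isOpen_Ioi
  by_cases hB : 0 < B
  · have hsub : Icc B⁻¹ B ⊆ Ioi (0 : ℝ) := fun y hy => lt_of_lt_of_le (inv_pos.2 hB) hy.1
    have hCe : ∃ C : ℝ, 0 ≤ C ∧ ∀ i ≤ k, ∀ p ∈ Icc B⁻¹ B,
        ‖iteratedFDerivWithin ℝ i (fun y : ℝ => y⁻¹) (Ioi 0) p‖ ≤ C := by
      have h1 : ∀ i, ∃ C : ℝ, ∀ p ∈ Icc B⁻¹ B,
          ‖iteratedFDerivWithin ℝ i (fun y : ℝ => y⁻¹) (Ioi 0) p‖ ≤ C := fun i =>
        isCompact_Icc.exists_bound_of_continuousOn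
          ((hΨ.continuousOn_iteratedFDerivWithin (m := i) (by exact_mod_cast le_top)
            ht.uniqueDiffOn).mono hsub)
      choose C hC using h1
      refine ⟨∑ i ∈ Finset.range (k + 1), |C i|, by positivity, fun i hi p hp => ?_⟩
      refine (hC i p hp).trans ((le_abs_self _).trans ?_)
      exact Finset.single_le_sum (f := fun i => |C i|) (fun _ _ => abs_nonneg _)
        (Finset.mem_range.2 (by omega))
    obtain ⟨C, hC0, hC⟩ := hCe
    refine ⟨k.factorial * C * (max 1 B) ^ k, by positivity, fun E _ _ f hf hp x hi hcl => ?_⟩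
    have hft : f x ∈ Icc B⁻¹ B := by
      constructor
      · rw [inv_le_comm₀ hB (hp x)]
        exact hi
      · have h1 := hcl 0 (Nat.zero_le _)
        rw [norm_iteratedFDeriv_zero] at h1
        exact (le_abs_self _).trans h1
    have hrange : Set.range f ⊆ Ioi 0 := by rintro _ ⟨x, rfl⟩; exact hp x
    intro l hl
    have h1D : (1 : ℝ) ≤ max 1 B := le_max_left _ _
    have key : ‖iteratedFDeriv ℝ l ((fun y : ℝ => y⁻¹) ∘ f) x‖ ≤
        l.factorial * C * (max 1 B) ^ l := by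
      refine norm_iteratedFDeriv_comp_le' hrange ht.uniqueDiffOn hΨ hf
        (by exact_mod_cast le_top) x (fun i hi => hC i (hi.trans hl) _ hft) ?_
      intro i hi1 hi2
      refine (hcl i (hi2.trans hl)).trans ?_
      calc B ≤ max 1 B := le_max_right _ _
        _ = (max 1 B) ^ 1 := (pow_one _).symm
        _ ≤ (max 1 B) ^ i := pow_le_pow_right₀ h1D hi1
    refine key.trans ?_
    have h3 : (l.factorial : ℝ) ≤ k.factorial := by exact_mod_cast Nat.factorial_le hl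
    have h4 : (max 1 B) ^ l ≤ (max 1 B) ^ k := pow_le_pow_right₀ h1D hl
    gcongr
  · refine ⟨0, le_rfl, fun E _ _ f _ hp x hi _ => ?_⟩
    exact absurd (lt_of_lt_of_le (inv_pos.2 (hp x)) hi) hB

/-- Second order vanishing. -/
theorem taylor2 (hf : ContDiff ℝ ∞ f) {S : Set E} (hS : Convex ℝ S) {M : ℝ}
    (hM : ∀ w ∈ S, ‖iteratedFDeriv ℝ 2 f w‖ ≤ M) {d : E} (hd : d ∈ S) (h0 : f d = 0)
    (h1 : fderiv ℝ f d = 0) {z : E} (hz : z ∈ S) :
    |f z| ≤ M * ‖z - d‖ ^ 2 ∧ ‖fderiv ℝ f z‖ ≤ M * ‖z - d‖ := by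
  have hf' : ContDiff ℝ ∞ (fderiv ℝ f) := hf.fderiv_right (by simp)
  have hM0 : 0 ≤ M := (norm_nonneg _).trans (hM d hd)
  have key : ∀ w ∈ S, ‖fderiv ℝ f w‖ ≤ M * ‖w - d‖ := by
    intro w hw
    have := hS.norm_image_sub_le_of_norm_fderiv_le (f := fderiv ℝ f) (𝕜 := ℝ) (C := M)
      (fun y _ => (hf'.differentiable (by simp)).differentiableAt)
      (fun y hy => by
        have := hM y hy
        rw [show (2 : ℕ) = 1 + 1 from rfl, ← norm_iteratedFDeriv_fderiv,
          norm_iteratedFDeriv_one] at this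
        exact this) hd hw
    rwa [h1, sub_zero] at this
  refine ⟨?_, key z hz⟩
  have hseg : segment ℝ d z ⊆ S := hS.segment_subset hd hz
  have := (convex_segment d z).norm_image_sub_le_of_norm_fderiv_le (f := f) (𝕜 := ℝ)
    (C := M * ‖z - d‖) (fun y _ => (hf.differentiable (by simp)).differentiableAt)
    (fun y hy => by
      refine (key y (hseg hy)).trans (mul_le_mul_of_nonneg_left ?_ hM0)
      obtain ⟨t, ht, rfl⟩ := (segment_eq_image' ℝ d z).subset hy
      rw [add_sub_cancel_left, norm_smul, Real.norm_eq_abs, abs_of_nonneg ht.1]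
      exact mul_le_of_le_one_left (norm_nonneg _) ht.2) (left_mem_segment ℝ d z)
    (right_mem_segment ℝ d z)
  rw [h0, sub_zero, Real.norm_eq_abs] at this
  linarith [this, pow_two (‖z - d‖), mul_assoc M ‖z - d‖ ‖z - d‖,
    congrArg (M * ·) (pow_two (‖z - d‖))]

/-- Smooth, with bounded jets on `S`. -/
def Jc (k : ℕ) (a : ℝ) (S : Set E) (f : E → ℝ) : Prop := ContDiff ℝ ∞ f ∧ ∀ z ∈ S, Jb k a f z

variable {S : Set E}

theorem Jc.mono (h : Jc k a S f) (hab : a ≤ b) : Jc k b S f := ⟨h.1, fun z hz => (h.2 z hz).mono hab⟩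

theorem Jc.ord {k' : ℕ} (h : Jc k a S f) (hk : k' ≤ k) : Jc k' a S f :=
  ⟨h.1, fun z hz => (h.2 z hz).ord hk⟩

theorem Jc.add (h : Jc k a S f) (h' : Jc k b S g) : Jc k (a + b) S (fun w => f w + g w) :=
  ⟨h.1.add h'.1, fun z hz => Jb.add h.1 h'.1 (h.2 z hz) (h'.2 z hz)⟩

theorem Jc.neg (h : Jc k a S f) : Jc k a S (fun w => - f w) :=
  ⟨h.1.neg, fun z hz => (h.2 z hz).neg⟩

theorem Jc.sub (h : Jc k a S f) (h' : Jc k b S g) : Jc k (a + b) S (fun w => f w - g w) :=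
  ⟨h.1.sub h'.1, fun z hz => Jb.sub h.1 h'.1 (h.2 z hz) (h'.2 z hz)⟩

theorem Jc.mul (h : Jc k a S f) (h' : Jc k b S g) :
    Jc k (2 ^ k * (a * b)) S (fun w => f w * g w) :=
  ⟨h.1.mul h'.1, fun z hz => Jb.mul h.1 h'.1 (h.2 z hz) (h'.2 z hz)⟩

theorem Jc.sum {ι : Type*} [Fintype ι] {f : ι → E → ℝ} (h : ∀ i, Jc k a S (f i)) :
    Jc k (Fintype.card ι * a) S (fun w => ∑ i, f i w) :=
  ⟨ContDiff.sum fun i _ => (h i).1, fun z hz =>
    Jb.sum Finset.univ (fun i => (h i).1) fun i _ => (h i).2 z hz⟩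

theorem Jc.const (c : ℝ) (hc : |c| ≤ a) : Jc k a S (fun _ : E => c) :=
  ⟨contDiff_const, fun _ _ => (Jb.const c).mono hc⟩

theorem Jc.comp_clm {F : Type*} [NormedAddCommGroup F] [NormedSpace ℝ F] {f : F → ℝ} {T : Set F}
    (h : Jc k a T f) (L : E →L[ℝ] F) (hL : ‖L‖ ≤ 1) (hS : ∀ z ∈ S, L z ∈ T) :
    Jc k a S (fun w => f (L w)) :=
  ⟨h.1.comp L.contDiff, fun z hz => Jb.comp_clm h.1 L hL (h.2 _ (hS z hz))⟩

theorem Jc.clm (L : E →L[ℝ] ℝ) (h0 : ∀ z ∈ S, |L z| ≤ a) (h1 : ‖L‖ ≤ a) :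
    Jc k a S (fun w => L w) := ⟨L.contDiff, fun z hz => Jb.clm L (h0 z hz) h1⟩

theorem Jc.dir (h : Jc (k + 1) a S f) (v : E) (hv : ‖v‖ ≤ 1) :
    Jc k a S (fun w => fderiv ℝ f w v) :=
  ⟨(h.1.fderiv_right (by simp)).clm_apply contDiff_const,
    fun z hz => Jb.dir h.1 v hv (h.2 z hz)⟩

end jets

end Vale.Agent.P088.HY.QM
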