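import Vale.Agent.P088.R2.H558.Spec
import Vale.Agent.P088.R2.H673.QM0

/-!
# P088, two metrics, row QM: bounds of `tfp` and of the two residuals
-/

open MeasureTheory Set
open scoped ContDiff Matrix

noncomputable section

namespace Vale.Agent.P088.HY.QM

open Vale.Agent.P088.LR

variable {n : ℕ}

theorem norm_single_one (i : Fin n) : ‖(Pi.single i (1 : ℝ) : V n)‖ ≤ 1 := by
  rw [Pi.norm_single, norm_one]

theorem Jc.pd {k : ℕ} {a : ℝ} {S : Set (V n)} {f : V n → ℝ} (h : Jc (k + 1) a S f) (i : Fin n) :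
    Jc k a S (fun x => pd i f x) := Jc.dir h _ (norm_single_one i)

theorem jc_of_cl {k : ℕ} {a : ℝ} {f : V n → ℝ} (hf : ContDiff ℝ ∞ f) (h : Cl k a f)
    (S : Set (V n)) : Jc k a S f := ⟨hf, fun z _ l hl => h l hl z⟩

/-- Entries of a tensor near `1`. -/
theorem jc_s {K : ℕ} {ε : ℝ} {s : MF n} (hs : TS n K ε s) (hε : ε ≤ 1) (i j : Fin n)
    (S : Set (V n)) : Jc K 2 S (fun x => s x i j) := by
  have h1 : ContDiff ℝ ∞ (fun x => s x i j - (1 : Matrix (Fin n) (Fin n) ℝ) i j) :=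
    (hs.sm i j).sub contDiff_const
  have h2 := (jc_of_cl h1 (hs.cl i j) S).add
    (Jc.const (k := K) (a := 1) (S := S) ((1 : Matrix (Fin n) (Fin n) ℝ) i j) (by
      rw [Matrix.one_apply]; split_ifs <;> simp))
  have h3 : (fun x => s x i j) = fun w => s w i j - (1 : Matrix (Fin n) (Fin n) ℝ) i j +
    (1 : Matrix (Fin n) (Fin n) ℝ) i j := by funext w; ring
  rw [h3]
  exact h2.mono (by linarith)

theorem jc_h {K : ℕ} {ε H : ℝ} {s₁ s₂ : MF n} (h1 : TS n K ε s₁) (h2 : TS n K ε s₂)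
    (h : DB K H s₁ s₂) (i j : Fin n) (S : Set (V n)) : Jc K H S (fun x => s₂ x i j - s₁ x i j) := by
  have h3 := (jc_of_cl ((h1.sm i j).sub (h2.sm i j)) (h i j) S).neg
  have h4 : (fun x => s₂ x i j - s₁ x i j) = fun w => -(s₁ w i j - s₂ w i j) := by
    funext w; ring
  rw [h4]; exact h3

theorem ipm_pos {K : ℕ} {ε : ℝ} {s : MF n} (hn : 1 ≤ n) (hs : TS n K ε s) (hε : ε ≤ 1 / 2)
    (x : V n) : 1 / 4 ≤ ipm s s x := by
  have i0 : Fin n := ⟨0, hn⟩
  have h0 := hs.cl i0 i0 0 (Nat.zero_le _) x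
  rw [norm_iteratedFDeriv_zero, Real.norm_eq_abs, Matrix.one_apply_eq, abs_le] at h0
  have h1 : s x i0 i0 * s x i0 i0 ≤ ipm s s x := by
    unfold ipm
    refine le_trans ?_ (Finset.single_le_sum (f := fun i => ∑ j, s x i j * s x i j)
      (fun i _ => Finset.sum_nonneg fun j _ => mul_self_nonneg _) (Finset.mem_univ i0))
    exact Finset.single_le_sum (f := fun j => s x i0 j * s x i0 j)
      (fun j _ => mul_self_nonneg _) (Finset.mem_univ i0)
  nlinarith [h0.1, h0.2]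

theorem jc_ipm {K : ℕ} {a b : ℝ} {s h : MF n} {S : Set (V n)}
    (hs : ∀ i j, Jc K a S (fun x => s x i j)) (hh : ∀ i j, Jc K b S (fun x => h x i j)) :
    Jc K (n * (n * (2 ^ K * (a * b)))) S (ipm s h) := by
  have := Jc.sum fun i => Jc.sum fun j => (hs i j).mul (hh i j)
  simp only [Fintype.card_fin] at this
  exact this

/-- Bound of the trace free part. -/
theorem exists_tfp (n K : ℕ) (hn : 1 ≤ n) : ∃ C : ℝ, 0 ≤ C ∧ ∀ (ε H : ℝ) (s₁ s₂ : MF n), ε ≤ 1 / 2 →
    TS n K ε s₁ → TS n K ε s₂ → DB K H s₁ s₂ → ∀ i j,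
    Jc K (C * H) univ (fun x => tfp s₁ (fun x => s₂ x - s₁ x) x i j) := by
  obtain ⟨C₁, hC₁, hinv⟩ := Jb.inv_aux K (max 4 (n * (n * (2 ^ K * (2 * 2)))))
  refine ⟨1 + 2 ^ K * (2 ^ K * (n * (n * (2 ^ K * (2 * 1))) * C₁) * 2), by positivity, ?_⟩
  intro ε H s₁ s₂ hε h1 h2 hD i j
  have hs := fun i j => jc_s h1 (by linarith) i j univ
  have hh := fun i j => jc_h h1 h2 hD i j univ
  have hm := jc_ipm hs hs
  have hp : ∀ x, 0 < ipm s₁ s₁ x := fun x => lt_of_lt_of_le (by norm_num) (ipm_pos hn h1 hε x)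
  have hi : Jc K C₁ univ (fun x => (ipm s₁ s₁ x)⁻¹) := by
    refine ⟨hm.1.inv fun x => (hp x).ne', fun x _ => ?_⟩
    refine hinv _ _ hm.1 hp x ?_ ((hm.2 x (mem_univ x)).mono (le_max_right _ _))
    refine le_trans ?_ (le_max_left _ _)
    rw [inv_le_comm₀ (hp x) (by norm_num)]
    have := ipm_pos hn h1 hε x
    linarith
  have hsh := jc_ipm (h := fun x => s₂ x - s₁ x) hs (fun i j => by simpa using hh i j)
  have hq := ((hsh.mul hi).mul (hs i j))
  have hr := (hh i j).sub hq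
  have e : (fun x => tfp s₁ (fun x => s₂ x - s₁ x) x i j) = fun w => s₂ w i j - s₁ w i j -
      ipm s₁ (fun x => s₂ x - s₁ x) w * (ipm s₁ s₁ w)⁻¹ * s₁ w i j := by
    funext w
    simp only [tfp, Matrix.sub_apply, Matrix.smul_apply, smul_eq_mul, div_eq_mul_inv]
  rw [e]
  refine hr.mono (le_of_eq ?_)
  ring

theorem ipm_tfp {s h : MF n} {x : V n} (hs : ipm s s x ≠ 0) : ipm s (tfp s h) x = 0 := by
  have : ipm s (tfp s h) x = ipm s h x - (ipm s h x / ipm s s x) * ipm s s x := by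
    unfold ipm tfp
    simp only [Matrix.sub_apply, Matrix.smul_apply, smul_eq_mul, mul_sub, Finset.sum_sub_distrib,
      Finset.mul_sum]
    congr 1
    refine Finset.sum_congr rfl fun i _ => Finset.sum_congr rfl fun j _ => ?_
    simp only [ipm]
    ring
  rw [this, div_mul_cancel₀ _ hs, sub_self]

/-! ## The residuals -/

/-- The residual in `x`. -/
def Rx (s k : MF n) (z : VV n) : ℝ := ∑ i, ∑ j, s z.1 i j * k z.2 i j -
  ∑ l, (∑ i, ∑ j, pd l (fun x => s x i j) z.1 * k z.1 i j) * (z.1 l - z.2 l)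

/-- The residual in `y`. -/
def Ry (s k : MF n) (z : VV n) : ℝ := 1 / 2 * ∑ i, ∑ j,
  (∑ a, ∑ b, s z.2 a b * pd a (pd b (fun y => k y i j)) z.2) *
    ((z.1 i - z.2 i) * (z.1 j - z.2 j))

/-- The closed unit ball of pairs. -/
def S0 (n : ℕ) : Set (VV n) := Metric.closedBall 0 1

/-- The functional `x_l - y_l`. -/
def ql (l : Fin n) : VV n →L[ℝ] ℝ :=
  (ContinuousLinearMap.proj (R := ℝ) (φ := fun _ : Fin n => ℝ) l).comp
    (ContinuousLinearMap.fst ℝ (V n) (V n)) -
  (ContinuousLinearMap.proj (R := ℝ) (φ := fun _ : Fin n => ℝ) l).comp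
    (ContinuousLinearMap.snd ℝ (V n) (V n))

theorem ql_apply (l : Fin n) (z : VV n) : ql l z = z.1 l - z.2 l := rfl

theorem abs_ql_le (l : Fin n) (z : VV n) : |ql l z| ≤ 2 * ‖z‖ := by
  rw [ql_apply]
  have h1 : |z.1 l| ≤ ‖z‖ := by
    rw [← Real.norm_eq_abs]; exact (norm_le_pi_norm z.1 l).trans (norm_fst_le z)
  have h2 : |z.2 l| ≤ ‖z‖ := by
    rw [← Real.norm_eq_abs]; exact (norm_le_pi_norm z.2 l).trans (norm_snd_le z)
  calc |z.1 l - z.2 l| ≤ |z.1 l| + |z.2 l| := abs_sub _ _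
    _ ≤ 2 * ‖z‖ := by linarith

theorem jc_q (k : ℕ) (l : Fin n) : Jc k 2 (S0 n) (fun z => z.1 l - z.2 l) := by
  refine Jc.clm (ql l) (fun z hz => ?_) ?_
  · have : ‖z‖ ≤ 1 := by simpa [S0] using hz
    exact (abs_ql_le l z).trans (by linarith)
  · exact ContinuousLinearMap.opNorm_le_bound _ (by norm_num) fun z => by
      rw [Real.norm_eq_abs]; exact abs_ql_le l z

theorem Jc.fst {k : ℕ} {a : ℝ} {f : V n → ℝ} (h : Jc k a univ f) (S : Set (VV n)) :
    Jc k a S (fun z => f z.1) :=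
  h.comp_clm (ContinuousLinearMap.fst ℝ (V n) (V n)) (ContinuousLinearMap.norm_fst_le ℝ _ _)
    fun _ _ => mem_univ _

theorem Jc.snd {k : ℕ} {a : ℝ} {f : V n → ℝ} (h : Jc k a univ f) (S : Set (VV n)) :
    Jc k a S (fun z => f z.2) :=
  h.comp_clm (ContinuousLinearMap.snd ℝ (V n) (V n)) (ContinuousLinearMap.norm_snd_le ℝ _ _)
    fun _ _ => mem_univ _

theorem exists_R (n K : ℕ) : ∃ C : ℝ, 0 ≤ C ∧ ∀ (b : ℝ) (s k : MF n), 0 ≤ b →
    (∀ i j, Jc (K + 1) 2 univ (fun x => s x i j)) → (∀ i j, Jc (K + 2) b univ (fun x => k x i j)) →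
    Jc K (C * b) (S0 n) (Rx s k) ∧ Jc K (C * b) (S0 n) (Ry s k) := by
  refine ⟨max (n * (n * (2 ^ K * 2)) + n * (2 ^ K * (n * (n * (2 ^ K * 2)) * 2)))
    (2 ^ K * (1 * (n * (n * (2 ^ K * (n * (n * (2 ^ K * 2)) * (2 ^ K * (2 * 2)))))))),
    by positivity, ?_⟩
  intro b s k hb hs hk
  constructor
  · have h1 : Jc K (n * (n * (2 ^ K * (2 * b)))) (S0 n)
        (fun z : VV n => ∑ i, ∑ j, s z.1 i j * k z.2 i j) := by
      have := Jc.sum fun i => Jc.sum fun j =>
        (((hs i j).ord (Nat.le_succ K)).fst (S0 n)).mul (((hk i j).ord (by omega : K ≤ K + 2)).snd (S0 n))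
      simpa only [Fintype.card_fin] using this
    have h2 : ∀ l, Jc K (n * (n * (2 ^ K * (2 * b)))) (S0 n)
        (fun z : VV n => ∑ i, ∑ j, pd l (fun x => s x i j) z.1 * k z.1 i j) := by
      intro l
      have := Jc.sum fun i => Jc.sum fun j =>
        (((hs i j).pd l).fst (S0 n)).mul (((hk i j).ord (by omega : K ≤ K + 2)).fst (S0 n))
      simpa only [Fintype.card_fin] using this
    have h3 := h1.sub (Jc.sum fun l => (h2 l).mul (jc_q K l))
    simp only [Fintype.card_fin] at h3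
    refine Jc.mono h3 ?_
    calc (n : ℝ) * (n * (2 ^ K * (2 * b))) + n * (2 ^ K * (n * (n * (2 ^ K * (2 * b))) * 2))
        = (n * (n * (2 ^ K * 2)) + n * (2 ^ K * (n * (n * (2 ^ K * 2)) * 2))) * b := by ring
      _ ≤ _ := mul_le_mul_of_nonneg_right (le_max_left _ _) hb
  · have h1 : ∀ i j, Jc K (n * (n * (2 ^ K * (2 * b)))) (S0 n)
        (fun z : VV n => ∑ a, ∑ c, s z.2 a c * pd a (pd c (fun y => k y i j)) z.2) := by
      intro i j
      have := Jc.sum fun a => Jc.sum fun c =>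
        (((hs a c).ord (Nat.le_succ K)).snd (S0 n)).mul ((((hk i j).pd c).pd a).snd (S0 n))
      simpa only [Fintype.card_fin] using this
    have h2 := Jc.sum fun i => Jc.sum fun j => (h1 i j).mul ((jc_q K i).mul (jc_q K j))
    have h3 := (Jc.const (k := K) (a := 1) (S := S0 n) (1 / 2 : ℝ) (by norm_num)).mul h2
    simp only [Fintype.card_fin] at h3
    refine Jc.mono h3 ?_
    calc 2 ^ K * (1 * ((n : ℝ) * (n * (2 ^ K * (n * (n * (2 ^ K * (2 * b))) *
          (2 ^ K * (2 * 2)))))))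
        = (2 ^ K * (1 * (n * (n * (2 ^ K * (n * (n * (2 ^ K * 2)) * (2 ^ K * (2 * 2)))))))) * b := by
          ring
      _ ≤ _ := mul_le_mul_of_nonneg_right (le_max_right _ _) hb

theorem fderiv_eq_sum_pd (f : V n → ℝ) (x v : V n) : fderiv ℝ f x v = ∑ l, v l * pd l f x := by
  have h : v = ∑ l, v l • (Pi.single l (1 : ℝ) : V n) := by
    ext j
    simp [Finset.sum_apply, Pi.single_apply]
  conv_lhs => rw [h]
  simp [map_sum, pd]

theorem Rx_diag {s k : MF n} (h : ∀ y, ipm s k y = 0) (y : V n) : Rx s k (y, y) = 0 := by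
  simp only [Rx, sub_self, mul_zero, Finset.sum_const_zero, sub_zero]
  exact h y

theorem Ry_diag {s k : MF n} (y : V n) : Ry s k (y, y) = 0 := by
  simp [Ry]

theorem hfd_fst {f : V n → ℝ} {f' : V n →L[ℝ] ℝ} {z : VV n} (h : HasFDerivAt f f' z.1) :
    HasFDerivAt (fun z : VV n => f z.1) (f'.comp (ContinuousLinearMap.fst ℝ (V n) (V n))) z :=
  HasFDerivAt.comp (g := f) z h hasFDerivAt_fst

theorem hfd_snd {f : V n → ℝ} {f' : V n →L[ℝ] ℝ} {z : VV n} (h : HasFDerivAt f f' z.2) :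
    HasFDerivAt (fun z : VV n => f z.2) (f'.comp (ContinuousLinearMap.snd ℝ (V n) (V n))) z :=
  HasFDerivAt.comp (g := f) z h hasFDerivAt_snd

theorem fderiv_Rx_diag {s k : MF n} (hs : SmM s) (hk : SmM k) (h : ∀ y, ipm s k y = 0) (y : V n) :
    fderiv ℝ (Rx s k) (y, y) = 0 := by
  have hds : ∀ i j, HasFDerivAt (fun x => s x i j) (fderiv ℝ (fun x => s x i j) y) y := fun i j =>
    ((hs i j).differentiable (by simp)).differentiableAt.hasFDerivAt
  have hdk : ∀ i j, HasFDerivAt (fun x => k x i j) (fderiv ℝ (fun x => k x i j) y) y := fun i j =>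
    ((hk i j).differentiable (by simp)).differentiableAt.hasFDerivAt
  have hc : ∀ l, HasFDerivAt
      (fun z : VV n => ∑ i, ∑ j, pd l (fun x => s x i j) z.1 * k z.1 i j)
      (fderiv ℝ (fun z : VV n => ∑ i, ∑ j, pd l (fun x => s x i j) z.1 * k z.1 i j) (y, y))
      (y, y) := by
    intro l
    refine DifferentiableAt.hasFDerivAt ?_
    have : ContDiff ℝ ∞ (fun z : VV n => ∑ i, ∑ j, pd l (fun x => s x i j) z.1 * k z.1 i j) := by
      refine ContDiff.sum fun i _ => ContDiff.sum fun j _ => ContDiff.mul ?_ ?_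
      · exact (((hs i j).fderiv_right (m := ∞) (by simp)).clm_apply contDiff_const).comp contDiff_fst
      · exact (hk i j).comp contDiff_fst
    exact (this.differentiable (by simp)).differentiableAt
  have h1 : HasFDerivAt (fun z : VV n => ∑ i, ∑ j, s z.1 i j * k z.2 i j)
      (∑ i, ∑ j, (s y i j • (fderiv ℝ (fun x => k x i j) y).comp
        (ContinuousLinearMap.snd ℝ (V n) (V n)) + k y i j • (fderiv ℝ (fun x => s x i j) y).comp
        (ContinuousLinearMap.fst ℝ (V n) (V n)))) (y, y) := by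
    refine HasFDerivAt.fun_sum fun i _ => HasFDerivAt.fun_sum fun j _ => ?_
    have e1 : HasFDerivAt (fun z : VV n => s z.1 i j) ((fderiv ℝ (fun x => s x i j) y).comp
        (ContinuousLinearMap.fst ℝ (V n) (V n))) (y, y) := hfd_fst (z := (y, y)) (hds i j)
    have e2 : HasFDerivAt (fun z : VV n => k z.2 i j) ((fderiv ℝ (fun x => k x i j) y).comp
        (ContinuousLinearMap.snd ℝ (V n) (V n))) (y, y) := hfd_snd (z := (y, y)) (hdk i j)
    exact e1.mul e2
  have h2 : HasFDerivAt (fun z : VV n =>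
      ∑ l, (∑ i, ∑ j, pd l (fun x => s x i j) z.1 * k z.1 i j) * (z.1 l - z.2 l))
      (∑ l, (∑ i, ∑ j, pd l (fun x => s x i j) y * k y i j) • ql l) (y, y) := by
    refine HasFDerivAt.fun_sum fun l _ => ?_
    have := (hc l).mul (ql l).hasFDerivAt
    simp only [ql_apply, sub_self, zero_smul, add_zero] at this
    exact this
  have h3 := h1.sub h2
  have h4 : HasFDerivAt (ipm s k) (∑ i, ∑ j, (s y i j • (fderiv ℝ (fun x => k x i j) y) +
      k y i j • (fderiv ℝ (fun x => s x i j) y))) y :=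
    HasFDerivAt.fun_sum fun i _ => HasFDerivAt.fun_sum fun j _ => (hds i j).mul (hdk i j)
  have h5 : ipm s k = fun _ => 0 := funext h
  rw [h5] at h4
  have h6 := h4.unique (hasFDerivAt_const (0 : ℝ) y)
  have h7 : fderiv ℝ (Rx s k) (y, y) = _ := h3.fderiv
  rw [h7]
  refine ContinuousLinearMap.ext fun v => ?_
  have h8 := congrArg (fun L : V n →L[ℝ] ℝ => L v.2) h6
  simp only [ContinuousLinearMap.sum_apply, ContinuousLinearMap.add_apply,
    ContinuousLinearMap.smul_apply, ContinuousLinearMap.zero_apply, smul_eq_mul] at h8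
  simp only [ContinuousLinearMap.sub_apply, ContinuousLinearMap.sum_apply,
    ContinuousLinearMap.add_apply, ContinuousLinearMap.smul_apply, ContinuousLinearMap.comp_apply,
    ContinuousLinearMap.coe_fst', ContinuousLinearMap.coe_snd', smul_eq_mul, ql_apply,
    ContinuousLinearMap.zero_apply]
  have h9 : ∑ l, (∑ i, ∑ j, pd l (fun x => s x i j) y * k y i j) * (v.1 l - v.2 l) =
      ∑ i, ∑ j, (k y i j * fderiv ℝ (fun x => s x i j) y v.1 -
        k y i j * fderiv ℝ (fun x => s x i j) y v.2) := by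
    simp only [fderiv_eq_sum_pd, Finset.sum_mul, Finset.mul_sum, ← Finset.sum_sub_distrib]
    rw [Finset.sum_comm]
    refine Finset.sum_congr rfl fun i _ => ?_
    rw [Finset.sum_comm]
    refine Finset.sum_congr rfl fun j _ => Finset.sum_congr rfl fun l _ => ?_
    ring
  rw [h9, ← h8]
  simp only [← Finset.sum_sub_distrib]
  refine Finset.sum_congr rfl fun i _ => Finset.sum_congr rfl fun j _ => ?_
  ring

theorem fderiv_Ry_diag {s k : MF n} (hs : SmM s) (hk : SmM k) (y : V n) :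
    fderiv ℝ (Ry s k) (y, y) = 0 := by
  have hc : ∀ i j, DifferentiableAt ℝ
      (fun z : VV n => ∑ a, ∑ b, s z.2 a b * pd a (pd b (fun y => k y i j)) z.2) (y, y) := by
    intro i j
    have : ContDiff ℝ ∞
        (fun z : VV n => ∑ a, ∑ b, s z.2 a b * pd a (pd b (fun y => k y i j)) z.2) := by
      refine ContDiff.sum fun a _ => ContDiff.sum fun b _ => ContDiff.mul ?_ ?_
      · exact (hs a b).comp contDiff_snd
      · have h1 : ContDiff ℝ ∞ (pd b (fun y => k y i j)) :=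
          ((hk i j).fderiv_right (m := ∞) (by simp)).clm_apply contDiff_const
        exact ((h1.fderiv_right (m := ∞) (by simp)).clm_apply contDiff_const).comp contDiff_snd
    exact (this.differentiable (by simp)).differentiableAt
  have h1 : HasFDerivAt (Ry s k) ((1 / 2 : ℝ) • ∑ _i : Fin n, ∑ _j : Fin n,
      (0 : VV n →L[ℝ] ℝ)) (y, y) := by
    refine HasFDerivAt.const_mul (HasFDerivAt.fun_sum fun i _ => HasFDerivAt.fun_sum fun j _ => ?_) _
    have := (hc i j).hasFDerivAt.mul ((ql i).hasFDerivAt.mul (ql j).hasFDerivAt)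
    simp only [Pi.mul_apply, ql_apply, sub_self, zero_smul, add_zero, mul_zero, smul_zero] at this
    exact this
  simpa using h1.fderiv

theorem norm_sq_le (q : V n) : ‖q‖ ^ 2 ≤ sq q := by
  have h0 : 0 ≤ sq q := Finset.sum_nonneg fun j _ => sq_nonneg _
  have h1 : ‖q‖ ≤ √(sq q) := by
    refine (pi_norm_le_iff_of_nonneg (Real.sqrt_nonneg _)).mpr fun j => ?_
    rw [Real.norm_eq_abs]
    refine Real.abs_le_sqrt ?_
    exact Finset.single_le_sum (f := fun j => q j ^ 2) (fun j _ => sq_nonneg _) (Finset.mem_univ j)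
  calc ‖q‖ ^ 2 ≤ √(sq q) ^ 2 := by gcongr
    _ = sq q := Real.sq_sqrt h0

/-- Second order vanishing on the diagonal. -/
theorem vanish2 {R : VV n → ℝ} {M : ℝ} {K : ℕ} (hK : 2 ≤ K) (hR : Jc K M (S0 n) R)
    (h0 : ∀ y, R (y, y) = 0) (h1 : ∀ y, fderiv ℝ R (y, y) = 0) {z : VV n} (hz : z ∈ S0 n) :
    |R z| ≤ M * ‖z.1 - z.2‖ ^ 2 ∧ ‖fderiv ℝ R z‖ ≤ M * ‖z.1 - z.2‖ := by
  have hz' : ‖z‖ ≤ 1 := by simpa [S0] using hz
  have hd : ((z.2, z.2) : VV n) ∈ S0 n := by
    simp only [S0, mem_closedBall_zero_iff, Prod.norm_def, max_self]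
    exact (norm_snd_le z).trans hz'
  have h := taylor2 hR.1 (convex_closedBall (0 : VV n) 1) (M := M)
    (fun w hw => hR.2 w hw 2 hK) hd (h0 _) (h1 _) hz
  have e : ‖z - (z.2, z.2)‖ = ‖z.1 - z.2‖ := by
    rw [Prod.norm_def]
    simp
  rw [e] at h
  exact h

end Vale.Agent.P088.HY.QM
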