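import Vale.Agent.P088.R2.H558.Spec

/-!
# P088, two metrics, row QM: calculus
-/

open MeasureTheory Set Filter
open scoped ContDiff Matrix Topology

noncomputable section

namespace Vale.Agent.P088.HY.QM

open Vale.Agent.P088.LR

variable {n : ℕ}

/-! ## First and second derivatives on `V n` -/

section calc1

variable {f g : V n → ℝ} {x : V n}

theorem pd_congr {i : Fin n} (h : f =ᶠ[𝓝 x] g) : pd i f x = pd i g x := by
  unfold pd; rw [h.fderiv_eq]

theorem pd_add {i : Fin n} (hf : DifferentiableAt ℝ f x) (hg : DifferentiableAt ℝ g x) :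
    pd i (fun x => f x + g x) x = pd i f x + pd i g x := by
  unfold pd; rw [fderiv_fun_add hf hg]; rfl

theorem pd_mul {i : Fin n} (hf : DifferentiableAt ℝ f x) (hg : DifferentiableAt ℝ g x) :
    pd i (fun x => f x * g x) x = f x * pd i g x + pd i f x * g x := by
  unfold pd
  rw [fderiv_fun_mul hf hg]
  change f x * (fderiv ℝ g x) (Pi.single i 1) + g x * (fderiv ℝ f x) (Pi.single i 1) = _
  ring

theorem pd_const {i : Fin n} (c : ℝ) : pd i (fun _ : V n => c) x = 0 := by
  simp [pd]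

theorem pd_sum {ι : Type*} {i : Fin n} {s : Finset ι} {F : ι → V n → ℝ}
    (h : ∀ a ∈ s, DifferentiableAt ℝ (F a) x) :
    pd i (fun x => ∑ a ∈ s, F a x) x = ∑ a ∈ s, pd i (F a) x := by
  unfold pd
  rw [fderiv_fun_sum h]
  simp

theorem diff_of {f : V n → ℝ} {x : V n} (hf : ContDiffAt ℝ 2 f x) : DifferentiableAt ℝ f x :=
  hf.differentiableAt (by norm_num)

theorem ev_diff (hf : ContDiffAt ℝ 2 f x) : ∀ᶠ y in 𝓝 x, DifferentiableAt ℝ f y :=
  (hf.eventually (by simp)).mono fun _ h => diff_of h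

theorem diff_pd (hf : ContDiffAt ℝ 2 f x) (i : Fin n) : DifferentiableAt ℝ (pd i f) x := by
  have h : ContDiffAt ℝ 1 (fderiv ℝ f) x := hf.fderiv_right (by norm_num)
  exact (h.clm_apply contDiffAt_const).differentiableAt (by norm_num)

theorem pd2_add (hf : ContDiffAt ℝ 2 f x) (hg : ContDiffAt ℝ 2 g x) (i j : Fin n) :
    pd i (pd j (fun x => f x + g x)) x = pd i (pd j f) x + pd i (pd j g) x := by
  have h : (pd j (fun x => f x + g x)) =ᶠ[𝓝 x] fun x => pd j f x + pd j g x := by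
    filter_upwards [ev_diff hf, ev_diff hg] with y h1 h2 using pd_add h1 h2
  rw [pd_congr h, pd_add (diff_pd hf j) (diff_pd hg j)]

theorem pd2_sum {ι : Type*} {s : Finset ι} {F : ι → V n → ℝ}
    (h : ∀ a ∈ s, ContDiffAt ℝ 2 (F a) x) (i j : Fin n) :
    pd i (pd j (fun x => ∑ a ∈ s, F a x)) x = ∑ a ∈ s, pd i (pd j (F a)) x := by
  have h' : (pd j (fun x => ∑ a ∈ s, F a x)) =ᶠ[𝓝 x] fun x => ∑ a ∈ s, pd j (F a) x := by
    have : ∀ᶠ y in 𝓝 x, ∀ a ∈ s, DifferentiableAt ℝ (F a) y :=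
      (Filter.eventually_all_finset s).mpr fun a ha => ev_diff (h a ha)
    filter_upwards [this] with y hy using pd_sum hy
  rw [pd_congr h', pd_sum fun a ha => diff_pd (h a ha) j]

theorem pd2_mul (hf : ContDiffAt ℝ 2 f x) (hg : ContDiffAt ℝ 2 g x) (i j : Fin n) :
    pd i (pd j (fun x => f x * g x)) x = f x * pd i (pd j g) x + pd i f x * pd j g x +
      (pd j f x * pd i g x + pd i (pd j f) x * g x) := by
  have h : (pd j (fun x => f x * g x)) =ᶠ[𝓝 x] fun x => f x * pd j g x + pd j f x * g x := by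
    filter_upwards [ev_diff hf, ev_diff hg] with y h1 h2 using pd_mul h1 h2
  rw [pd_congr h, pd_add (f := fun x => f x * pd j g x) (g := fun x => pd j f x * g x)
    ((diff_of hf).mul (diff_pd hg j)) ((diff_pd hf j).mul (diff_of hg)),
    pd_mul (diff_of hf) (diff_pd hg j), pd_mul (diff_pd hf j) (diff_of hg)]

/-- The polarized form. -/
def Gm (s : MF n) (f g : V n → ℝ) (x : V n) : ℝ := ∑ i, ∑ j, s x i j * (pd i f x * pd j g x)

theorem Lv_add (s : MF n) (hf : ContDiffAt ℝ 2 f x) (hg : ContDiffAt ℝ 2 g x) :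
    Lv s (fun x => f x + g x) x = Lv s f x + Lv s g x := by
  unfold Lv
  simp only [pd2_add hf hg, mul_add, Finset.sum_add_distrib]

theorem Lv_sum (s : MF n) {ι : Type*} {t : Finset ι} {F : ι → V n → ℝ}
    (h : ∀ a ∈ t, ContDiffAt ℝ 2 (F a) x) :
    Lv s (fun x => ∑ a ∈ t, F a x) x = ∑ a ∈ t, Lv s (F a) x := by
  unfold Lv
  simp only [pd2_sum h, Finset.mul_sum]
  have h1 : ∀ i : Fin n, ∑ j, ∑ a ∈ t, s x i j * pd i (pd j (F a)) x =
      ∑ a ∈ t, ∑ j, s x i j * pd i (pd j (F a)) x := fun i => Finset.sum_comm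
  simp only [h1]
  exact Finset.sum_comm

theorem Lv_mul {s : MF n} (hs : (s x).IsSymm) (hf : ContDiffAt ℝ 2 f x)
    (hg : ContDiffAt ℝ 2 g x) :
    Lv s (fun x => f x * g x) x = f x * Lv s g x + g x * Lv s f x + 2 * Gm s f g x := by
  have h1 : Gm s f g x = ∑ i, ∑ j, s x i j * (pd j f x * pd i g x) := by
    unfold Gm
    rw [Finset.sum_comm]
    refine Finset.sum_congr rfl fun i _ => Finset.sum_congr rfl fun j _ => ?_
    rw [hs.apply i j]
  have h2 : 2 * Gm s f g x = Gm s f g x + ∑ i, ∑ j, s x i j * (pd j f x * pd i g x) := by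
    rw [← h1]; ring
  rw [h2]
  unfold Lv Gm
  simp only [pd2_mul hf hg, Finset.mul_sum, ← Finset.sum_add_distrib]
  refine Finset.sum_congr rfl fun i _ => Finset.sum_congr rfl fun j _ => ?_
  ring

theorem Lv_const_mul (s : MF n) (c : ℝ) (hf : ContDiffAt ℝ 2 f x) :
    Lv s (fun x => c * f x) x = c * Lv s f x := by
  unfold Lv
  have h : ∀ i j : Fin n, pd i (pd j (fun x => c * f x)) x = c * pd i (pd j f) x := by
    intro i j
    have h1 : (pd j (fun x => c * f x)) =ᶠ[𝓝 x] fun x => c * pd j f x := by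
      filter_upwards [ev_diff hf] with y h1
      unfold pd
      rw [fderiv_const_mul h1]
      rfl
    rw [pd_congr h1]
    change fderiv ℝ _ x _ = _
    rw [fderiv_const_mul (diff_pd hf j)]
    rfl
  simp only [h, Finset.mul_sum]
  refine Finset.sum_congr rfl fun i _ => Finset.sum_congr rfl fun j _ => ?_
  ring

theorem Lv_congr (s : MF n) (h : f =ᶠ[𝓝 x] g) : Lv s f x = Lv s g x := by
  unfold Lv
  refine Finset.sum_congr rfl fun i _ => Finset.sum_congr rfl fun j _ => ?_
  have h1 : pd j f =ᶠ[𝓝 x] pd j g := by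
    filter_upwards [h.eventuallyEq_nhds] with y hy using pd_congr hy
  rw [pd_congr h1]

/-- Functions with constant gradient. -/
theorem Lv_aff {c : Fin n → ℝ} (s : MF n) (h : ∀ j y, pd j f y = c j) : Lv s f x = 0 := by
  unfold Lv
  have : ∀ j, pd j f = fun _ => c j := fun j => funext fun y => h j y
  simp only [this, pd_const, mul_zero, Finset.sum_const_zero]

theorem Lv_const (s : MF n) (c : ℝ) : Lv s (fun _ : V n => c) x = 0 :=
  Lv_aff s (c := fun _ => 0) fun _ _ => pd_const c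

end calc1

theorem pd_coord (l : Fin n) (c : ℝ) (j : Fin n) (x : V n) :
    pd j (fun x : V n => x l - c) x = if j = l then 1 else 0 := by
  have : HasFDerivAt (fun x : V n => x l - c)
      (ContinuousLinearMap.proj (R := ℝ) (φ := fun _ : Fin n => ℝ) l) x :=
    (ContinuousLinearMap.proj (R := ℝ) (φ := fun _ : Fin n => ℝ) l).hasFDerivAt.sub_const c
  unfold pd
  rw [this.fderiv]
  simp [Pi.single_apply, eq_comm]

theorem pd_coord' (l : Fin n) (c : ℝ) (j : Fin n) (x : V n) :
    pd j (fun x : V n => c - x l) x = if j = l then -1 else 0 := by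
  have : HasFDerivAt (fun x : V n => c - x l)
      (-ContinuousLinearMap.proj (R := ℝ) (φ := fun _ : Fin n => ℝ) l) x :=
    (ContinuousLinearMap.proj (R := ℝ) (φ := fun _ : Fin n => ℝ) l).hasFDerivAt.const_sub c
  unfold pd
  rw [this.fderiv]
  simp [Pi.single_apply, eq_comm]
  split_ifs <;> simp

/-! ## Slices -/

section slices

variable {f : VV n → ℝ} {z : VV n}

theorem evz_diff (hf : ContDiffAt ℝ 2 f z) : ∀ᶠ w in 𝓝 z, DifferentiableAt ℝ f w :=
  (hf.eventually (by simp)).mono fun _ h => h.differentiableAt (by norm_num)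

theorem dx_eq (hf : DifferentiableAt ℝ f z) (i : Fin n) :
    dx i f z = pd i (fun x => f (x, z.2)) z.1 := by
  have h1 : HasFDerivAt (fun x : V n => (x, z.2)) (ContinuousLinearMap.inl ℝ (V n) (V n)) z.1 :=
    hasFDerivAt_prodMk_left z.1 z.2
  have h2 : HasFDerivAt (fun x => f (x, z.2))
      ((fderiv ℝ f z).comp (ContinuousLinearMap.inl ℝ (V n) (V n))) z.1 :=
    HasFDerivAt.comp (g := f) z.1 hf.hasFDerivAt h1
  unfold dx pd
  rw [h2.fderiv]
  rfl

theorem dy_eq (hf : DifferentiableAt ℝ f z) (i : Fin n) :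
    dy i f z = pd i (fun y => f (z.1, y)) z.2 := by
  have h1 : HasFDerivAt (fun y : V n => (z.1, y)) (ContinuousLinearMap.inr ℝ (V n) (V n)) z.2 :=
    hasFDerivAt_prodMk_right z.1 z.2
  have h2 : HasFDerivAt (fun y => f (z.1, y))
      ((fderiv ℝ f z).comp (ContinuousLinearMap.inr ℝ (V n) (V n))) z.2 :=
    HasFDerivAt.comp (g := f) z.2 hf.hasFDerivAt h1
  unfold dy pd
  rw [h2.fderiv]
  rfl

theorem diff_dx (hf : ContDiffAt ℝ 2 f z) (i : Fin n) : DifferentiableAt ℝ (dx i f) z := by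
  have h : ContDiffAt ℝ 1 (fderiv ℝ f) z := hf.fderiv_right (by norm_num)
  exact (h.clm_apply contDiffAt_const).differentiableAt (by norm_num)

theorem diff_dy (hf : ContDiffAt ℝ 2 f z) (i : Fin n) : DifferentiableAt ℝ (dy i f) z := by
  have h : ContDiffAt ℝ 1 (fderiv ℝ f) z := hf.fderiv_right (by norm_num)
  exact (h.clm_apply contDiffAt_const).differentiableAt (by norm_num)

theorem tendsto_left (z : VV n) : Tendsto (fun x : V n => (x, z.2)) (𝓝 z.1) (𝓝 z) := by
  have : Continuous (fun x : V n => (x, z.2)) := by fun_prop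
  exact this.tendsto' _ _ rfl

theorem tendsto_right (z : VV n) : Tendsto (fun y : V n => (z.1, y)) (𝓝 z.2) (𝓝 z) := by
  have : Continuous (fun y : V n => (z.1, y)) := by fun_prop
  exact this.tendsto' _ _ rfl

theorem dxx_eq (hf : ContDiffAt ℝ 2 f z) (i j : Fin n) :
    dx i (dx j f) z = pd i (pd j (fun x => f (x, z.2))) z.1 := by
  rw [dx_eq (diff_dx hf j)]
  refine pd_congr ?_
  filter_upwards [(tendsto_left z).eventually (evz_diff hf)] with x hx
  rw [dx_eq hx]

theorem dyy_eq (hf : ContDiffAt ℝ 2 f z) (i j : Fin n) :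
    dy i (dy j f) z = pd i (pd j (fun y => f (z.1, y))) z.2 := by
  rw [dy_eq (diff_dy hf j)]
  refine pd_congr ?_
  filter_upwards [(tendsto_right z).eventually (evz_diff hf)] with x hx
  rw [dy_eq hx]

theorem dxy_eq (hf : ContDiffAt ℝ 2 f z) (i j : Fin n) :
    dx i (dy j f) z = pd i (fun x => pd j (fun y => f (x, y)) z.2) z.1 := by
  rw [dx_eq (diff_dy hf j)]
  refine pd_congr ?_
  filter_upwards [(tendsto_left z).eventually (evz_diff hf)] with x hx
  rw [dy_eq hx]

theorem Lx_eq (s : MF n) (hf : ContDiffAt ℝ 2 f z) :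
    Lx s f z = Lv s (fun x => f (x, z.2)) z.1 := by
  unfold Lx Lv
  simp only [dxx_eq hf]

theorem Ly_eq (s : MF n) (hf : ContDiffAt ℝ 2 f z) :
    Ly s f z = Lv s (fun y => f (z.1, y)) z.2 := by
  unfold Ly Lv
  simp only [dyy_eq hf]

end slices

end Vale.Agent.P088.HY.QM
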