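import Vale.Agent.P088.R2.H673.QM1
import Vale.Agent.P088.R2.H673.QM2

/-!
# P088, two metrics, row QM: the approximate solution and its exact residuals
-/

open MeasureTheory Set Filter
open scoped ContDiff Matrix Topology

noncomputable section

namespace Vale.Agent.P088.HY.QM

open Vale.Agent.P088.LR

variable {n : ℕ}

/-- The approximate solution. -/
def kk (k2 : MF n) (k1 : Fin n → V n → ℝ) (k0 : V n → ℝ) (k1' : Fin n → V n → ℝ)
    (k0' : V n → ℝ) (z : VV n) : ℝ :=
  ∑ i, ∑ j, (1 / 2 * k2 z.2 i j) * ((z.1 i - z.2 i) * (z.1 j - z.2 j)) +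
    ∑ l, k1 l z.2 * (z.1 l - z.2 l) + k0 z.2 + ∑ l, k1' l z.1 * (z.1 l - z.2 l) + k0' z.1

theorem cd_coord (l : Fin n) (c : ℝ) (x : V n) : ContDiffAt ℝ 2 (fun x : V n => x l - c) x :=
  ContDiffAt.sub (contDiff_apply ℝ ℝ l).contDiffAt contDiffAt_const

theorem cd_coord' (l : Fin n) (c : ℝ) (x : V n) : ContDiffAt ℝ 2 (fun x : V n => c - x l) x :=
  ContDiffAt.sub contDiffAt_const (contDiff_apply ℝ ℝ l).contDiffAt

theorem Gm_coord (s : MF n) (f : V n → ℝ) (l : Fin n) (c : ℝ) (x : V n) :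
    Gm s f (fun x : V n => x l - c) x = ∑ a, s x a l * pd a f x := by
  unfold Gm
  simp only [pd_coord]
  refine Finset.sum_congr rfl fun a _ => ?_
  simp

theorem Gm_coord' (s : MF n) (f : V n → ℝ) (l : Fin n) (c : ℝ) (x : V n) :
    Gm s f (fun x : V n => c - x l) x = -∑ a, s x a l * pd a f x := by
  unfold Gm
  simp only [pd_coord']
  rw [← Finset.sum_neg_distrib]
  refine Finset.sum_congr rfl fun a _ => ?_
  simp

theorem Lv_coord (s : MF n) (l : Fin n) (c : ℝ) (x : V n) :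
    Lv s (fun x : V n => x l - c) x = 0 := Lv_aff s fun j y => pd_coord l c j y

theorem Lv_coord' (s : MF n) (l : Fin n) (c : ℝ) (x : V n) :
    Lv s (fun x : V n => c - x l) x = 0 := Lv_aff s fun j y => pd_coord' l c j y

/-- The residual in `x`. -/
theorem Lv_kk_x {s k2 : MF n} {k1 : Fin n → V n → ℝ} {k0 : V n → ℝ} {k1' : Fin n → V n → ℝ}
    {k0' : V n → ℝ} {x y : V n} (hs : (s x).IsSymm)
    (c1 : ∀ l, ContDiffAt ℝ 2 (k1' l) x) (c0 : ContDiffAt ℝ 2 k0' x)
    (h1 : ∀ l, Lv s (k1' l) x = -∑ i, ∑ j, pd l (fun x => s x i j) x * k2 x i j)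
    (h0 : Lv s k0' x = -(2 * ∑ a, ∑ b, s x a b * pd a (k1' b) x)) :
    Lv s (fun x => kk k2 k1 k0 k1' k0' (x, y)) x = Rx s k2 (x, y) := by
  have e1 : ∀ i j : Fin n, Lv s (fun x : V n => (1 / 2 * k2 y i j) *
      ((x i - y i) * (x j - y j))) x = s x i j * k2 y i j := by
    intro i j
    rw [Lv_const_mul s _ ((cd_coord i (y i) x).mul (cd_coord j (y j) x)),
      Lv_mul hs (cd_coord i (y i) x) (cd_coord j (y j) x), Lv_coord, Lv_coord, Gm_coord]
    simp only [pd_coord]
    simp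
    ring
  have e2 : ∀ l, Lv s (fun x : V n => k1 l y * (x l - y l)) x = 0 := by
    intro l
    rw [Lv_const_mul s _ (cd_coord l (y l) x), Lv_coord, mul_zero]
  have e3 : ∀ l, Lv s (fun x : V n => k1' l x * (x l - y l)) x =
      (x l - y l) * Lv s (k1' l) x + 2 * ∑ a, s x a l * pd a (k1' l) x := by
    intro l
    rw [Lv_mul hs (c1 l) (cd_coord l (y l) x), Lv_coord, Gm_coord, mul_zero, zero_add]
  have d1 : ContDiffAt ℝ 2 (fun x : V n => ∑ i, ∑ j, (1 / 2 * k2 y i j) *
      ((x i - y i) * (x j - y j))) x := ContDiffAt.sum fun i _ => ContDiffAt.sum fun j _ =>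
    contDiffAt_const.mul ((cd_coord i (y i) x).mul (cd_coord j (y j) x))
  have d2 : ContDiffAt ℝ 2 (fun x : V n => ∑ l, k1 l y * (x l - y l)) x :=
    ContDiffAt.sum fun l _ => contDiffAt_const.mul (cd_coord l (y l) x)
  have d3 : ContDiffAt ℝ 2 (fun x : V n => ∑ l, k1' l x * (x l - y l)) x :=
    ContDiffAt.sum fun l _ => (c1 l).mul (cd_coord l (y l) x)
  have e : Lv s (fun x => kk k2 k1 k0 k1' k0' (x, y)) x =
      ∑ i, ∑ j, s x i j * k2 y i j + ∑ l, ((x l - y l) * Lv s (k1' l) x +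
        2 * ∑ a, s x a l * pd a (k1' l) x) + Lv s k0' x := by
    unfold kk
    simp only
    rw [Lv_add s (((d1.add d2).add contDiffAt_const).add d3) c0,
      Lv_add s ((d1.add d2).add contDiffAt_const) d3, Lv_add s (d1.add d2) contDiffAt_const,
      Lv_add s d1 d2, Lv_const,
      Lv_sum s fun i _ => ContDiffAt.sum fun j _ =>
        contDiffAt_const.mul ((cd_coord i (y i) x).mul (cd_coord j (y j) x)),
      Lv_sum s fun l _ => contDiffAt_const.mul (cd_coord l (y l) x),
      Lv_sum s fun l _ => (c1 l).mul (cd_coord l (y l) x)]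
    have e1' : ∀ i, Lv s (fun x : V n => ∑ j, (1 / 2 * k2 y i j) *
        ((x i - y i) * (x j - y j))) x = ∑ j, s x i j * k2 y i j := by
      intro i
      rw [Lv_sum s fun j _ => contDiffAt_const.mul ((cd_coord i (y i) x).mul (cd_coord j (y j) x))]
      exact Finset.sum_congr rfl fun j _ => e1 i j
    simp only [e1', e2, e3, Finset.sum_const_zero, add_zero]
  rw [e, h0]
  unfold Rx
  simp only [h1, Finset.sum_add_distrib]
  have e4 : ∑ l, 2 * ∑ a, s x a l * pd a (k1' l) x = 2 * ∑ a, ∑ b, s x a b * pd a (k1' b) x := by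
    rw [← Finset.mul_sum, Finset.sum_comm]
  rw [e4]
  have e5 : ∑ l, (x l - y l) * -∑ i, ∑ j, pd l (fun x => s x i j) x * k2 x i j =
      -∑ l, (∑ i, ∑ j, pd l (fun x => s x i j) x * k2 x i j) * (x l - y l) := by
    rw [← Finset.sum_neg_distrib]
    refine Finset.sum_congr rfl fun l _ => ?_
    ring
  rw [e5]
  ring

/-- The residual in `y`. -/
theorem Lv_kk_y {s k2 : MF n} {k1 : Fin n → V n → ℝ} {k0 : V n → ℝ} {k1' : Fin n → V n → ℝ}
    {k0' : V n → ℝ} {x y : V n} (hs : (s y).IsSymm) (hk : ∀ y, (k2 y).IsSymm)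
    (c2 : ∀ i j, ContDiffAt ℝ 2 (fun y => k2 y i j) y)
    (c1 : ∀ l, ContDiffAt ℝ 2 (k1 l) y) (c0 : ContDiffAt ℝ 2 k0 y)
    (h1 : ∀ l, Lv s (k1 l) y = 2 * ∑ a, ∑ b, s y a b * pd a (fun y => k2 y b l) y)
    (h0 : Lv s k0 y = -ipm s k2 y + 2 * ∑ a, ∑ b, s y a b * pd a (k1 b) y) :
    Lv s (fun y => kk k2 k1 k0 k1' k0' (x, y)) y = Ry s k2 (x, y) := by
  have c2' : ∀ i j, ContDiffAt ℝ 2 (fun y => 1 / 2 * k2 y i j) y := fun i j =>
    contDiffAt_const.mul (c2 i j)
  have hpd : ∀ a i j, pd a (fun y => 1 / 2 * k2 y i j) y = 1 / 2 * pd a (fun y => k2 y i j) y := by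
    intro a i j
    unfold pd
    rw [fderiv_const_mul (diff_of (c2 i j))]
    rfl
  have e1 : ∀ i j : Fin n, Lv s (fun y : V n => (1 / 2 * k2 y i j) *
      ((x i - y i) * (x j - y j))) y = s y i j * k2 y i j +
      1 / 2 * (Lv s (fun y => k2 y i j) y * ((x i - y i) * (x j - y j))) -
      ((x i - y i) * ∑ a, s y a j * pd a (fun y => k2 y i j) y +
        (x j - y j) * ∑ a, s y a i * pd a (fun y => k2 y i j) y) := by
    intro i j
    have g1 : Lv s (fun y : V n => (x i - y i) * (x j - y j)) y = 2 * s y i j := by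
      rw [Lv_mul hs (cd_coord' i (x i) y) (cd_coord' j (x j) y), Lv_coord', Lv_coord', Gm_coord']
      simp only [pd_coord']
      simp
    have g2 : Gm s (fun y => 1 / 2 * k2 y i j) (fun y : V n => (x i - y i) * (x j - y j)) y =
        -(1 / 2 * ((x i - y i) * ∑ a, s y a j * pd a (fun y => k2 y i j) y +
        (x j - y j) * ∑ a, s y a i * pd a (fun y => k2 y i j) y)) := by
      unfold Gm
      have g3 : ∀ b, pd b (fun y : V n => (x i - y i) * (x j - y j)) y =
          (x i - y i) * (if b = j then -1 else 0) + (if b = i then -1 else 0) * (x j - y j) := by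
        intro b
        rw [pd_mul (diff_of (cd_coord' i (x i) y)) (diff_of (cd_coord' j (x j) y)), pd_coord',
          pd_coord']
      simp only [g3, hpd]
      rw [Finset.mul_sum, Finset.mul_sum, ← Finset.sum_add_distrib, Finset.mul_sum,
        ← Finset.sum_neg_distrib]
      refine Finset.sum_congr rfl fun a _ => ?_
      simp only [mul_add, Finset.sum_add_distrib]
      simp
      ring
    rw [Lv_mul hs (c2' i j) ((cd_coord' i (x i) y).mul (cd_coord' j (x j) y)), g1, g2,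
      Lv_const_mul s _ (c2 i j)]
    ring
  have e2 : ∀ l, Lv s (fun y : V n => k1 l y * (x l - y l)) y =
      (x l - y l) * Lv s (k1 l) y - 2 * ∑ a, s y a l * pd a (k1 l) y := by
    intro l
    rw [Lv_mul hs (c1 l) (cd_coord' l (x l) y), Lv_coord', Gm_coord', mul_zero, zero_add]
    ring
  have e3 : ∀ l, Lv s (fun y : V n => k1' l x * (x l - y l)) y = 0 := by
    intro l
    rw [Lv_const_mul s _ (cd_coord' l (x l) y), Lv_coord', mul_zero]
  have d1' : ∀ i j, ContDiffAt ℝ 2 (fun y : V n => (1 / 2 * k2 y i j) *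
      ((x i - y i) * (x j - y j))) y := fun i j =>
    (c2' i j).mul ((cd_coord' i (x i) y).mul (cd_coord' j (x j) y))
  have d1 : ContDiffAt ℝ 2 (fun y : V n => ∑ i, ∑ j, (1 / 2 * k2 y i j) *
      ((x i - y i) * (x j - y j))) y := ContDiffAt.sum fun i _ => ContDiffAt.sum fun j _ => d1' i j
  have d2 : ContDiffAt ℝ 2 (fun y : V n => ∑ l, k1 l y * (x l - y l)) y :=
    ContDiffAt.sum fun l _ => (c1 l).mul (cd_coord' l (x l) y)
  have d3 : ContDiffAt ℝ 2 (fun y : V n => ∑ l, k1' l x * (x l - y l)) y :=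
    ContDiffAt.sum fun l _ => contDiffAt_const.mul (cd_coord' l (x l) y)
  have e : Lv s (fun y => kk k2 k1 k0 k1' k0' (x, y)) y =
      ∑ i, ∑ j, (s y i j * k2 y i j +
      1 / 2 * (Lv s (fun y => k2 y i j) y * ((x i - y i) * (x j - y j))) -
      ((x i - y i) * ∑ a, s y a j * pd a (fun y => k2 y i j) y +
        (x j - y j) * ∑ a, s y a i * pd a (fun y => k2 y i j) y)) +
      ∑ l, ((x l - y l) * Lv s (k1 l) y - 2 * ∑ a, s y a l * pd a (k1 l) y) + Lv s k0 y := by
    unfold kk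
    simp only
    rw [Lv_add s (((d1.add d2).add c0).add d3) contDiffAt_const,
      Lv_add s ((d1.add d2).add c0) d3, Lv_add s (d1.add d2) c0,
      Lv_add s d1 d2, Lv_const,
      Lv_sum s fun i _ => ContDiffAt.sum fun j _ => d1' i j,
      Lv_sum s fun l _ => (c1 l).mul (cd_coord' l (x l) y),
      Lv_sum s fun l _ => contDiffAt_const.mul (cd_coord' l (x l) y)]
    have e1' : ∀ i, Lv s (fun y : V n => ∑ j, (1 / 2 * k2 y i j) *
        ((x i - y i) * (x j - y j))) y = ∑ j, (s y i j * k2 y i j +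
      1 / 2 * (Lv s (fun y => k2 y i j) y * ((x i - y i) * (x j - y j))) -
      ((x i - y i) * ∑ a, s y a j * pd a (fun y => k2 y i j) y +
        (x j - y j) * ∑ a, s y a i * pd a (fun y => k2 y i j) y)) := by
      intro i
      rw [Lv_sum s fun j _ => d1' i j]
      exact Finset.sum_congr rfl fun j _ => e1 i j
    simp only [e1', e2, e3, Finset.sum_const_zero, add_zero]
  rw [e, h0]
  simp only [h1, Finset.sum_add_distrib, Finset.sum_sub_distrib]
  have hsy : ∀ i j, (fun y => k2 y i j) = fun y => k2 y j i := fun i j =>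
    funext fun y => ((hk y).apply i j).symm
  have e4 : ∑ l, 2 * ∑ a, s y a l * pd a (k1 l) y = 2 * ∑ a, ∑ b, s y a b * pd a (k1 b) y := by
    rw [← Finset.mul_sum, Finset.sum_comm]
  have e5 : ∑ i, ∑ j, (x i - y i) * ∑ a, s y a j * pd a (fun y => k2 y i j) y =
      ∑ l, (x l - y l) * ∑ a, ∑ b, s y a b * pd a (fun y => k2 y b l) y := by
    refine Finset.sum_congr rfl fun i _ => ?_
    rw [← Finset.mul_sum, Finset.sum_comm]
    refine congrArg _ (Finset.sum_congr rfl fun a _ => Finset.sum_congr rfl fun j _ => ?_)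
    rw [hsy i j]
  have e6 : ∑ i, ∑ j, (x j - y j) * ∑ a, s y a i * pd a (fun y => k2 y i j) y =
      ∑ l, (x l - y l) * ∑ a, ∑ b, s y a b * pd a (fun y => k2 y b l) y := by
    rw [Finset.sum_comm]
    refine Finset.sum_congr rfl fun i _ => ?_
    rw [← Finset.mul_sum, Finset.sum_comm]
  have e7 : ∑ l, (x l - y l) * (2 * ∑ a, ∑ b, s y a b * pd a (fun y => k2 y b l) y) =
      2 * ∑ l, (x l - y l) * ∑ a, ∑ b, s y a b * pd a (fun y => k2 y b l) y := by
    rw [Finset.mul_sum]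
    refine Finset.sum_congr rfl fun l _ => ?_
    ring
  rw [e4, e5, e6, e7]
  have e8 : ∑ i, ∑ j, 1 / 2 * (Lv s (fun y => k2 y i j) y * ((x i - y i) * (x j - y j))) =
      Ry s k2 (x, y) := by
    unfold Ry Lv
    rw [Finset.mul_sum]
    refine Finset.sum_congr rfl fun i _ => ?_
    rw [Finset.mul_sum]
  rw [e8]
  unfold ipm
  ring

end Vale.Agent.P088.HY.QM
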