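import Vale.Agent.P088.R2.H673.QM3

/-!
# P088, two metrics, row QM: smoothness and the mixed derivative on the diagonal
-/

open MeasureTheory Set Filter
open scoped ContDiff Matrix Topology

noncomputable section

namespace Vale.Agent.P088.HY.QM

open Vale.Agent.P088.LR

variable {n : ℕ}

theorem isOpen_Bs (n : ℕ) (ρ : ℝ) : IsOpen (Bs n ρ) := by
  have : Continuous (sq : V n → ℝ) := by unfold sq; fun_prop
  exact isOpen_lt this continuous_const

theorem isOpen_Bn (n : ℕ) : IsOpen (Bn n) := by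
  have : Continuous (sq : V n → ℝ) := by unfold sq; fun_prop
  exact isOpen_lt this continuous_const

theorem isOpen_Un (n : ℕ) : IsOpen (Un n) := (isOpen_Bn n).prod (isOpen_Bn n)

theorem cdo_kk {k2 : MF n} {k1 : Fin n → V n → ℝ} {k0 : V n → ℝ} {k1' : Fin n → V n → ℝ}
    {k0' : V n → ℝ} (c2 : SmM k2) (c1 : ∀ l, ContDiffOn ℝ ∞ (k1 l) (Bn n))
    (c0 : ContDiffOn ℝ ∞ k0 (Bn n)) (c1' : ∀ l, ContDiffOn ℝ ∞ (k1' l) (Bn n))
    (c0' : ContDiffOn ℝ ∞ k0' (Bn n)) : ContDiffOn ℝ ∞ (kk k2 k1 k0 k1' k0') (Un n) := by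
  have hq : ∀ l : Fin n, ContDiffOn ℝ ∞ (fun z : VV n => z.1 l - z.2 l) (Un n) := fun l =>
    (ql l).contDiff.contDiffOn
  have h1 : MapsTo (Prod.fst : VV n → V n) (Un n) (Bn n) := fun z hz => hz.1
  have h2 : MapsTo (Prod.snd : VV n → V n) (Un n) (Bn n) := fun z hz => hz.2
  have f1 : ∀ {f : V n → ℝ}, ContDiffOn ℝ ∞ f (Bn n) → ContDiffOn ℝ ∞ (fun z : VV n => f z.1)
    (Un n) := fun hf => hf.comp contDiff_fst.contDiffOn h1
  have f2 : ∀ {f : V n → ℝ}, ContDiffOn ℝ ∞ f (Bn n) → ContDiffOn ℝ ∞ (fun z : VV n => f z.2)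
    (Un n) := fun hf => hf.comp contDiff_snd.contDiffOn h2
  unfold kk
  refine ((((ContDiffOn.sum fun i _ => ContDiffOn.sum fun j _ => ?_).add
    (ContDiffOn.sum fun l _ => ?_)).add (f2 c0)).add (ContDiffOn.sum fun l _ => ?_)).add (f1 c0')
  · exact (contDiffOn_const.mul (f2 (c2 i j).contDiffOn)).mul ((hq i).mul (hq j))
  · exact (f2 (c1 l)).mul (hq l)
  · exact (f1 (c1' l)).mul (hq l)

/-! ## The mixed derivative -/

section mixed

variable {f g : VV n → ℝ} {z : VV n}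

theorem dx_congr {i : Fin n} (h : f =ᶠ[𝓝 z] g) : dx i f z = dx i g z := by
  unfold dx; rw [h.fderiv_eq]

theorem dx_add {i : Fin n} (hf : DifferentiableAt ℝ f z) (hg : DifferentiableAt ℝ g z) :
    dx i (fun z => f z + g z) z = dx i f z + dx i g z := by
  unfold dx; rw [fderiv_fun_add hf hg]; rfl

theorem dy_add {i : Fin n} (hf : DifferentiableAt ℝ f z) (hg : DifferentiableAt ℝ g z) :
    dy i (fun z => f z + g z) z = dy i f z + dy i g z := by
  unfold dy; rw [fderiv_fun_add hf hg]; rfl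

theorem dx_mul {i : Fin n} (hf : DifferentiableAt ℝ f z) (hg : DifferentiableAt ℝ g z) :
    dx i (fun z => f z * g z) z = f z * dx i g z + dx i f z * g z := by
  unfold dx
  rw [fderiv_fun_mul hf hg]
  change f z * (fderiv ℝ g z) (Pi.single i 1, 0) + g z * (fderiv ℝ f z) (Pi.single i 1, 0) = _
  ring

theorem dy_mul {i : Fin n} (hf : DifferentiableAt ℝ f z) (hg : DifferentiableAt ℝ g z) :
    dy i (fun z => f z * g z) z = f z * dy i g z + dy i f z * g z := by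
  unfold dy
  rw [fderiv_fun_mul hf hg]
  change f z * (fderiv ℝ g z) (0, Pi.single i 1) + g z * (fderiv ℝ f z) (0, Pi.single i 1) = _
  ring

theorem dx_sum {ι : Type*} {i : Fin n} {s : Finset ι} {F : ι → VV n → ℝ}
    (h : ∀ a ∈ s, DifferentiableAt ℝ (F a) z) :
    dx i (fun z => ∑ a ∈ s, F a z) z = ∑ a ∈ s, dx i (F a) z := by
  unfold dx
  rw [fderiv_fun_sum h]
  simp

theorem dy_sum {ι : Type*} {i : Fin n} {s : Finset ι} {F : ι → VV n → ℝ}
    (h : ∀ a ∈ s, DifferentiableAt ℝ (F a) z) :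
    dy i (fun z => ∑ a ∈ s, F a z) z = ∑ a ∈ s, dy i (F a) z := by
  unfold dy
  rw [fderiv_fun_sum h]
  simp

theorem diffz_of (hf : ContDiffAt ℝ 2 f z) : DifferentiableAt ℝ f z :=
  hf.differentiableAt (by norm_num)

theorem mx_add (hf : ContDiffAt ℝ 2 f z) (hg : ContDiffAt ℝ 2 g z) (i j : Fin n) :
    dx i (dy j (fun z => f z + g z)) z = dx i (dy j f) z + dx i (dy j g) z := by
  have h : (dy j (fun z => f z + g z)) =ᶠ[𝓝 z] fun z => dy j f z + dy j g z := by
    filter_upwards [evz_diff hf, evz_diff hg] with y h1 h2 using dy_add h1 h2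
  rw [dx_congr h, dx_add (diff_dy hf j) (diff_dy hg j)]

theorem mx_sum {ι : Type*} {s : Finset ι} {F : ι → VV n → ℝ}
    (h : ∀ a ∈ s, ContDiffAt ℝ 2 (F a) z) (i j : Fin n) :
    dx i (dy j (fun z => ∑ a ∈ s, F a z)) z = ∑ a ∈ s, dx i (dy j (F a)) z := by
  have h' : (dy j (fun z => ∑ a ∈ s, F a z)) =ᶠ[𝓝 z] fun z => ∑ a ∈ s, dy j (F a) z := by
    have : ∀ᶠ y in 𝓝 z, ∀ a ∈ s, DifferentiableAt ℝ (F a) y :=
      (Filter.eventually_all_finset s).mpr fun a ha => evz_diff (h a ha)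
    filter_upwards [this] with y hy using dy_sum hy
  rw [dx_congr h', dx_sum fun a ha => diff_dy (h a ha) j]

theorem mx_mul (hf : ContDiffAt ℝ 2 f z) (hg : ContDiffAt ℝ 2 g z) (i j : Fin n) :
    dx i (dy j (fun z => f z * g z)) z = f z * dx i (dy j g) z + dx i f z * dy j g z +
      (dy j f z * dx i g z + dx i (dy j f) z * g z) := by
  have h : (dy j (fun z => f z * g z)) =ᶠ[𝓝 z] fun z => f z * dy j g z + dy j f z * g z := by
    filter_upwards [evz_diff hf, evz_diff hg] with y h1 h2 using dy_mul h1 h2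
  rw [dx_congr h, dx_add (f := fun z => f z * dy j g z) (g := fun z => dy j f z * g z)
    ((diffz_of hf).mul (diff_dy hg j)) ((diff_dy hf j).mul (diffz_of hg)),
    dx_mul (diffz_of hf) (diff_dy hg j), dx_mul (diff_dy hf j) (diffz_of hg)]

theorem dx_ql (i l : Fin n) (z : VV n) : dx i (fun z : VV n => z.1 l - z.2 l) z =
    if i = l then 1 else 0 := by
  have h := (ql l).hasFDerivAt (x := z)
  unfold dx
  rw [show (fun z : VV n => z.1 l - z.2 l) = ql l from rfl, h.fderiv, ql_apply]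
  simp [Pi.single_apply, eq_comm]

theorem dy_ql (i l : Fin n) (z : VV n) : dy i (fun z : VV n => z.1 l - z.2 l) z =
    if i = l then -1 else 0 := by
  have h := (ql l).hasFDerivAt (x := z)
  unfold dy
  rw [show (fun z : VV n => z.1 l - z.2 l) = ql l from rfl, h.fderiv, ql_apply]
  simp [Pi.single_apply, eq_comm]
  split_ifs <;> simp

theorem mx_ql (i j l : Fin n) (z : VV n) : dx i (dy j (fun z : VV n => z.1 l - z.2 l)) z = 0 := by
  have : dy j (fun z : VV n => z.1 l - z.2 l) = fun _ => if j = l then -1 else 0 :=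
    funext fun z => dy_ql j l z
  rw [this]
  simp [dx]

theorem cd_ql (l : Fin n) (z : VV n) : ContDiffAt ℝ 2 (fun z : VV n => z.1 l - z.2 l) z :=
  (ql l).contDiff.contDiffAt

theorem dx_fst {a : V n → ℝ} {z : VV n} (h : DifferentiableAt ℝ a z.1) (i : Fin n) :
    dx i (fun z : VV n => a z.1) z = pd i a z.1 := by
  unfold dx pd
  rw [(hfd_fst h.hasFDerivAt).fderiv]
  rfl

theorem dy_fst {a : V n → ℝ} {z : VV n} (h : DifferentiableAt ℝ a z.1) (i : Fin n) :
    dy i (fun z : VV n => a z.1) z = 0 := by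
  unfold dy
  rw [(hfd_fst h.hasFDerivAt).fderiv]
  simp

theorem dx_snd {a : V n → ℝ} {z : VV n} (h : DifferentiableAt ℝ a z.2) (i : Fin n) :
    dx i (fun z : VV n => a z.2) z = 0 := by
  unfold dx
  rw [(hfd_snd h.hasFDerivAt).fderiv]
  simp

theorem dy_snd {a : V n → ℝ} {z : VV n} (h : DifferentiableAt ℝ a z.2) (i : Fin n) :
    dy i (fun z : VV n => a z.2) z = pd i a z.2 := by
  unfold dy pd
  rw [(hfd_snd h.hasFDerivAt).fderiv]
  rfl

theorem mx_fst {a : V n → ℝ} {z : VV n} (h : ContDiffAt ℝ 2 a z.1) (i j : Fin n) :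
    dx i (dy j (fun z : VV n => a z.1)) z = 0 := by
  have h1 : dy j (fun z : VV n => a z.1) =ᶠ[𝓝 z] fun _ => 0 := by
    filter_upwards [(continuous_fst.tendsto z).eventually (ev_diff h)] with w hw
    exact dy_fst hw j
  rw [dx_congr h1]
  simp [dx]

theorem mx_snd {a : V n → ℝ} {z : VV n} (h : ContDiffAt ℝ 2 a z.2) (i j : Fin n) :
    dx i (dy j (fun z : VV n => a z.2)) z = 0 := by
  have h1 : dy j (fun z : VV n => a z.2) =ᶠ[𝓝 z] fun z => pd j a z.2 := by
    filter_upwards [(continuous_snd.tendsto z).eventually (ev_diff h)] with w hw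
    exact dy_snd hw j
  rw [dx_congr h1, dx_snd (diff_pd h j)]

end mixed

/-- The mixed derivative of the approximate solution on the diagonal. -/
theorem mx_kk {k2 : MF n} {k1 : Fin n → V n → ℝ} {k0 : V n → ℝ} {k1' : Fin n → V n → ℝ}
    {k0' : V n → ℝ} {p : V n} (hk : (k2 p).IsSymm)
    (c2 : ∀ i j, ContDiffAt ℝ 2 (fun y => k2 y i j) p)
    (c1 : ∀ l, ContDiffAt ℝ 2 (k1 l) p) (c0 : ContDiffAt ℝ 2 k0 p)
    (c1' : ∀ l, ContDiffAt ℝ 2 (k1' l) p) (c0' : ContDiffAt ℝ 2 k0' p) (i j : Fin n) :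
    dx i (dy j (kk k2 k1 k0 k1' k0')) (p, p) = -k2 p i j + pd j (k1 i) p - pd i (k1' j) p := by
  have f1 : ∀ {f : V n → ℝ}, ContDiffAt ℝ 2 f p → ContDiffAt ℝ 2 (fun z : VV n => f z.1) (p, p) :=
    fun hf => ContDiffAt.comp (g := _) ((p, p) : VV n) hf contDiffAt_fst
  have f2 : ∀ {f : V n → ℝ}, ContDiffAt ℝ 2 f p → ContDiffAt ℝ 2 (fun z : VV n => f z.2) (p, p) :=
    fun hf => ContDiffAt.comp (g := _) ((p, p) : VV n) hf contDiffAt_snd
  have c2' : ∀ i j, ContDiffAt ℝ 2 (fun y => 1 / 2 * k2 y i j) p := fun i j =>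
    contDiffAt_const.mul (c2 i j)
  have g1 : ∀ a b, ContDiffAt ℝ 2 (fun z : VV n => (1 / 2 * k2 z.2 a b) *
      ((z.1 a - z.2 a) * (z.1 b - z.2 b))) (p, p) := fun a b =>
    (f2 (c2' a b)).mul ((cd_ql a _).mul (cd_ql b _))
  have g2 : ∀ l, ContDiffAt ℝ 2 (fun z : VV n => k1 l z.2 * (z.1 l - z.2 l)) (p, p) := fun l =>
    (f2 (c1 l)).mul (cd_ql l _)
  have g3 : ∀ l, ContDiffAt ℝ 2 (fun z : VV n => k1' l z.1 * (z.1 l - z.2 l)) (p, p) := fun l =>
    (f1 (c1' l)).mul (cd_ql l _)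
  have G1 : ContDiffAt ℝ 2 (fun z : VV n => ∑ a, ∑ b, (1 / 2 * k2 z.2 a b) *
      ((z.1 a - z.2 a) * (z.1 b - z.2 b))) (p, p) :=
    ContDiffAt.sum fun a _ => ContDiffAt.sum fun b _ => g1 a b
  have G2 : ContDiffAt ℝ 2 (fun z : VV n => ∑ l, k1 l z.2 * (z.1 l - z.2 l)) (p, p) :=
    ContDiffAt.sum fun l _ => g2 l
  have G3 : ContDiffAt ℝ 2 (fun z : VV n => ∑ l, k1' l z.1 * (z.1 l - z.2 l)) (p, p) :=
    ContDiffAt.sum fun l _ => g3 l
  have e1 : ∀ a b, dx i (dy j (fun z : VV n => (1 / 2 * k2 z.2 a b) *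
      ((z.1 a - z.2 a) * (z.1 b - z.2 b)))) (p, p) =
      1 / 2 * k2 p a b * (-(if i = a then 1 else 0) * (if j = b then 1 else 0)
        - (if j = a then 1 else 0) * (if i = b then 1 else 0)) := by
    intro a b
    have h5 : dx i (fun z : VV n => 1 / 2 * k2 z.2 a b) (p, p) = 0 :=
      dx_snd (z := (p, p)) (a := fun y => 1 / 2 * k2 y a b) (diff_of (c2' a b)) i
    rw [mx_mul (f2 (c2' a b)) ((cd_ql a _).mul (cd_ql b _)), mx_mul (cd_ql a _) (cd_ql b _),
      h5, mx_ql, mx_ql, dx_ql, dx_ql, dy_ql, dy_ql,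
      dx_mul (diffz_of (cd_ql a _)) (diffz_of (cd_ql b _))]
    simp only [sub_self, zero_mul, mul_zero, add_zero, zero_add]
    split_ifs <;> ring
  have e2 : ∀ l, dx i (dy j (fun z : VV n => k1 l z.2 * (z.1 l - z.2 l))) (p, p) =
      (if i = l then pd j (k1 l) p else 0) := by
    intro l
    rw [mx_mul (f2 (c1 l)) (cd_ql l _), mx_ql, dx_snd (z := (p, p)) (diff_of (c1 l)),
      dy_snd (z := (p, p)) (diff_of (c1 l)), dx_ql]
    simp
  have e3 : ∀ l, dx i (dy j (fun z : VV n => k1' l z.1 * (z.1 l - z.2 l))) (p, p) =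
      -(if j = l then pd i (k1' l) p else 0) := by
    intro l
    rw [mx_mul (f1 (c1' l)) (cd_ql l _), mx_ql, dx_fst (z := (p, p)) (diff_of (c1' l)),
      dy_fst (z := (p, p)) (diff_of (c1' l)), dy_ql]
    simp
    split_ifs <;> simp
  have hE : kk k2 k1 k0 k1' k0' = fun z => ∑ i, ∑ j, (1 / 2 * k2 z.2 i j) *
      ((z.1 i - z.2 i) * (z.1 j - z.2 j)) + ∑ l, k1 l z.2 * (z.1 l - z.2 l) + k0 z.2 +
      ∑ l, k1' l z.1 * (z.1 l - z.2 l) + k0' z.1 := rfl
  rw [hE, mx_add (((G1.add G2).add (f2 c0)).add G3) (f1 c0'),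
    mx_add ((G1.add G2).add (f2 c0)) G3, mx_add (G1.add G2) (f2 c0), mx_add G1 G2,
    mx_fst c0', mx_snd c0, mx_sum (fun l _ => g2 l), mx_sum (fun l _ => g3 l),
    mx_sum (fun a _ => ContDiffAt.sum fun b _ => g1 a b)]
  have e1' : ∀ a, dx i (dy j (fun z : VV n => ∑ b, (1 / 2 * k2 z.2 a b) *
      ((z.1 a - z.2 a) * (z.1 b - z.2 b)))) (p, p) = ∑ b,
      1 / 2 * k2 p a b * (-(if i = a then 1 else 0) * (if j = b then 1 else 0)
        - (if j = a then 1 else 0) * (if i = b then 1 else 0)) := by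
    intro a
    rw [mx_sum (fun b _ => g1 a b)]
    exact Finset.sum_congr rfl fun b _ => e1 a b
  simp only [e1', e2, e3]
  simp only [mul_sub, Finset.sum_sub_distrib, Finset.sum_neg_distrib, Finset.sum_ite_eq,
    Finset.mem_univ, if_true]
  have h1 : ∑ a, ∑ b, 1 / 2 * k2 p a b * (-(if i = a then (1 : ℝ) else 0) *
      (if j = b then 1 else 0)) = -(1 / 2 * k2 p i j) := by
    rw [Finset.sum_eq_single i]
    · rw [Finset.sum_eq_single j]
      · simp
      · intro b _ hb; simp [Ne.symm hb]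
      · simp
    · intro a _ ha; simp [Ne.symm ha]
    · simp
  have h2 : ∑ a, ∑ b, 1 / 2 * k2 p a b * ((if j = a then (1 : ℝ) else 0) *
      (if i = b then 1 else 0)) = (1 / 2 * k2 p i j) := by
    rw [Finset.sum_eq_single j]
    · rw [Finset.sum_eq_single i]
      · simp [hk.apply i j]
      · intro b _ hb; simp [Ne.symm hb]
      · simp
    · intro a _ ha; simp [Ne.symm ha]
    · simp
  rw [h1, h2]
  ring

end Vale.Agent.P088.HY.QM
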