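import Vale.Agent.P088.R2.H558.Defs

/-!
# P088, two metrics, row QM: the weighted integral
-/

open MeasureTheory Set Filter
open scoped ContDiff Matrix Topology

noncomputable section

namespace Vale.Agent.P088.HY.QM

open Vale.Agent.P088.LR

variable {n : ℕ}

theorem num_le {a b s τ : ℝ} (ha : 3 / 8 ≤ a) (ha' : a ≤ 1 / 2) (hb : 0 < b) (hb' : b ≤ 1 / 2)
    (hs : 0 ≤ s) (hτ : 1 ≤ τ) (h : b < 1 / 4 → 1 / 24 ≤ s) :
    (a ^ 4 + b ^ 4) * Real.exp (-(τ * s / (a * b))) / (a * b) ^ 2 ≤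
      1200 * Real.exp (-(2 * τ * s)) := by
  have ha0 : 0 < a := by linarith
  have h1 : 2 * τ * s + s / b ≤ τ * s / (a * b) := by
    have h2 : 0 ≤ τ * s := by positivity
    have h3 : 2 * (τ * s) / b ≤ τ * s / (a * b) := by
      rw [div_le_div_iff₀ hb (by positivity)]
      nlinarith [mul_nonneg h2 hb.le]
    have h4 : 2 * τ * s + s / b ≤ 2 * (τ * s) / b := by
      rw [← sub_nonneg]
      have : 2 * (τ * s) / b - (2 * τ * s + s / b) =
          (s * (τ - 1) + τ * s * (1 - 2 * b)) / b := by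
        field_simp
        ring
      rw [this]
      apply div_nonneg _ hb.le
      have : 0 ≤ s * (τ - 1) := mul_nonneg hs (by linarith)
      have : 0 ≤ τ * s * (1 - 2 * b) := mul_nonneg h2 (by linarith)
      linarith
    linarith
  have h5 : Real.exp (-(τ * s / (a * b))) ≤ Real.exp (-(2 * τ * s)) * Real.exp (-(s / b)) := by
    rw [← Real.exp_add]
    exact Real.exp_le_exp.mpr (by linarith)
  have h6 : (a ^ 4 + b ^ 4) / (a * b) ^ 2 ≤ 1 / b ^ 2 := by
    rw [div_le_div_iff₀ (by positivity) (by positivity)]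
    have e1 : a ^ 2 ≤ 1 / 4 := by nlinarith
    have e2 : b ^ 2 ≤ 1 / 4 := by nlinarith
    have e3 : 9 / 64 ≤ a ^ 2 := by nlinarith
    have e4 : a ^ 4 + b ^ 4 ≤ a ^ 2 := by nlinarith [sq_nonneg a, sq_nonneg b]
    have e5 : (0 : ℝ) ≤ b ^ 2 := by positivity
    calc (a ^ 4 + b ^ 4) * b ^ 2 ≤ a ^ 2 * b ^ 2 := by gcongr
      _ = 1 * (a * b) ^ 2 := by ring
  have h7 : 1 / b ^ 2 * Real.exp (-(s / b)) ≤ 1200 := by
    rcases lt_or_ge b (1 / 4) with h8 | h8
    · have h9 := h h8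
      have h10 : (s / b) ^ 2 / 2 ≤ Real.exp (s / b) := by
        have h11 : 0 ≤ s / b := by positivity
        have := Real.quadratic_le_exp_of_nonneg h11
        linarith
      rw [Real.exp_neg, ← div_eq_mul_inv, div_le_iff₀ (Real.exp_pos _)]
      have h12 : 1 / b ^ 2 ≤ 576 * (s / b) ^ 2 := by
        rw [div_pow, ← mul_div_assoc]
        apply div_le_div_of_nonneg_right _ (by positivity)
        nlinarith
      linarith [Real.exp_pos (s / b)]
    · have h9 : Real.exp (-(s / b)) ≤ 1 := Real.exp_le_one_iff.mpr (by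
        have : 0 ≤ s / b := by positivity
        linarith)
      have h10 : 1 / b ^ 2 ≤ 16 := by
        rw [div_le_iff₀ (by positivity)]
        nlinarith
      calc 1 / b ^ 2 * Real.exp (-(s / b)) ≤ 16 * 1 :=
            mul_le_mul h10 h9 (Real.exp_pos _).le (by norm_num)
        _ ≤ 1200 := by norm_num
  calc (a ^ 4 + b ^ 4) * Real.exp (-(τ * s / (a * b))) / (a * b) ^ 2
      = (a ^ 4 + b ^ 4) / (a * b) ^ 2 * Real.exp (-(τ * s / (a * b))) := by ring
    _ ≤ 1 / b ^ 2 * (Real.exp (-(2 * τ * s)) * Real.exp (-(s / b))) :=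
        mul_le_mul h6 h5 (Real.exp_pos _).le (by positivity)
    _ = (1 / b ^ 2 * Real.exp (-(s / b))) * Real.exp (-(2 * τ * s)) := by ring
    _ ≤ 1200 * Real.exp (-(2 * τ * s)) :=
        mul_le_mul_of_nonneg_right h7 (Real.exp_pos _).le

theorem sq_nonneg' (x : V n) : 0 ≤ sq x := Finset.sum_nonneg fun j _ => sq_nonneg _

theorem rr_pos {x : V n} (hx : x ∈ Bn n) : 0 < rr x := by
  have : sq x < 1 := hx
  unfold rr; linarith

theorem rr_le (x : V n) : rr x ≤ 1 / 2 := by
  have := sq_nonneg' x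
  unfold rr; linarith

theorem rr_ge {x : V n} (hx : sq x ≤ 1 / 4) : 3 / 8 ≤ rr x := by
  unfold rr; linarith

theorem sq_tri (x y : V n) : sq y ≤ 3 / 2 * sq x + 3 * sq (x - y) := by
  unfold sq
  rw [Finset.mul_sum, Finset.mul_sum, ← Finset.sum_add_distrib]
  refine Finset.sum_le_sum fun j _ => ?_
  rw [Pi.sub_apply]
  nlinarith [sq_nonneg (y j - 3 / 2 * x j)]

theorem sq_sub_comm (x y : V n) : sq (x - y) = sq (y - x) := by
  unfold sq
  refine Finset.sum_congr rfl fun j _ => ?_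
  simp only [Pi.sub_apply]
  ring

theorem far_le {x y : V n} (h1 : sq x ≤ 1 / 4) (hy : rr y < 1 / 4) : 1 / 24 ≤ sq (x - y) := by
  have h2 : 1 / 2 < sq y := by unfold rr at hy; linarith
  have := sq_tri x y
  linarith

theorem weight_le {τ : ℝ} (hτ : 1 ≤ τ) {z : VV n} (hz : z ∈ Un n)
    (h : sq z.1 ≤ 1 / 4 ∨ sq z.2 ≤ 1 / 4) :
    (rr z.1 ^ 4 + rr z.2 ^ 4) * Real.exp (-(2 * τ * (uu z - 1))) / (rr z.1 * rr z.2) ^ 2 ≤
      1200 * Real.exp (-(2 * τ * sq (z.1 - z.2))) := by
  have hx := rr_pos hz.1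
  have hy := rr_pos hz.2
  have e : 2 * τ * (uu z - 1) = τ * sq (z.1 - z.2) / (rr z.1 * rr z.2) := by
    unfold uu
    field_simp
    ring
  rw [e]
  rcases h with h | h
  · exact num_le (rr_ge h) (rr_le _) hy (rr_le _) (sq_nonneg' _) hτ fun h' => far_le h h'
  · have := num_le (rr_ge h) (rr_le _) hx (rr_le _) (sq_nonneg' (z.1 - z.2)) hτ fun h' => by
      rw [sq_sub_comm]; exact far_le h h'
    rw [add_comm, mul_comm (rr z.1) (rr z.2)]
    exact this

/-! ## The Gaussian integral -/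

/-- `(|q|²)² e^{-2τ|q|²}`. -/
def gs (τ : ℝ) (q : V n) : ℝ := sq q ^ 2 * Real.exp (-(2 * τ * sq q))

theorem gs_nonneg (τ : ℝ) (q : V n) : 0 ≤ gs τ q := by unfold gs; positivity

theorem continuous_sq : Continuous (sq : V n → ℝ) := by unfold sq; fun_prop

theorem continuous_gs (τ : ℝ) : Continuous (gs τ : V n → ℝ) := by
  unfold gs
  have := continuous_sq (n := n)
  fun_prop

theorem integrable_gs_one : Integrable (gs 1 : V n → ℝ) := by
  have h1 : Integrable (fun q : V n => 2 * ∏ j, Real.exp (-1 * q j ^ 2)) :=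
    (Integrable.fintype_prod (f := fun (_ : Fin n) (t : ℝ) => Real.exp (-1 * t ^ 2))
      fun _ => integrable_exp_neg_mul_sq (by norm_num)).const_mul 2
  refine h1.mono' (continuous_gs 1).aestronglyMeasurable (Eventually.of_forall fun q => ?_)
  rw [Real.norm_eq_abs, abs_of_nonneg (gs_nonneg _ _), ← Real.exp_sum]
  have e : ∑ j, -1 * q j ^ 2 = -sq q := by
    unfold sq; rw [← Finset.mul_sum]; ring
  rw [e]
  unfold gs
  have h2 := Real.quadratic_le_exp_of_nonneg (sq_nonneg' q)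
  have h3 : sq q ^ 2 ≤ 2 * Real.exp (sq q) := by have := sq_nonneg' q; linarith
  calc sq q ^ 2 * Real.exp (-(2 * 1 * sq q))
      ≤ 2 * Real.exp (sq q) * Real.exp (-(2 * 1 * sq q)) :=
        mul_le_mul_of_nonneg_right h3 (Real.exp_pos _).le
    _ = 2 * Real.exp (-sq q) := by
        rw [mul_assoc, ← Real.exp_add]
        congr 2
        ring

theorem gs_scale {τ : ℝ} (hτ : 0 < τ) (q : V n) : gs τ q = (τ ^ 2)⁻¹ * gs 1 (√τ • q) := by
  have e : sq (√τ • q) = τ * sq q := by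
    unfold sq
    rw [Finset.mul_sum]
    refine Finset.sum_congr rfl fun j _ => ?_
    rw [Pi.smul_apply, smul_eq_mul, mul_pow, Real.sq_sqrt hτ.le]
  unfold gs
  rw [e]
  have : (τ ^ 2)⁻¹ * ((τ * sq q) ^ 2 * Real.exp (-(2 * 1 * (τ * sq q)))) =
      ((τ ^ 2)⁻¹ * τ ^ 2) * (sq q ^ 2 * Real.exp (-(2 * 1 * (τ * sq q)))) := by ring
  rw [this, inv_mul_cancel₀ (by positivity), one_mul]
  congr 2
  ring

theorem integral_gs {τ : ℝ} (hτ : 0 < τ) : Integrable (gs τ : V n → ℝ) ∧
    ∫ q : V n, gs τ q = (∫ q : V n, gs 1 q) / √τ ^ (n + 4) := by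
  have hs : 0 < √τ := Real.sqrt_pos.mpr hτ
  have e : (gs τ : V n → ℝ) = fun q => (τ ^ 2)⁻¹ * gs 1 (√τ • q) := funext fun q => gs_scale hτ q
  constructor
  · rw [e]
    exact (integrable_gs_one.comp_smul hs.ne').const_mul _
  · rw [e, integral_const_mul, Measure.integral_comp_smul, smul_eq_mul,
      Module.finrank_fin_fun, abs_of_pos (by positivity)]
    have : τ ^ 2 = √τ ^ 4 := by
      rw [show (4 : ℕ) = 2 * 2 from rfl, pow_mul, Real.sq_sqrt hτ.le]
    rw [this, pow_add]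
    field_simp

theorem Bn_sub : Bn n ⊆ Metric.closedBall 0 1 := by
  intro x hx
  have h : sq x < 1 := hx
  rw [mem_closedBall_zero_iff, pi_norm_le_iff_of_nonneg zero_le_one]
  intro j
  have h1 : x j ^ 2 ≤ sq x := Finset.single_le_sum (f := fun j => x j ^ 2)
    (fun j _ => sq_nonneg _) (Finset.mem_univ j)
  rw [Real.norm_eq_abs, abs_le]
  constructor <;> nlinarith

theorem meas_Bn : MeasurableSet (Bn n) := (isOpen_lt continuous_sq continuous_const).measurableSet

theorem vol_Bn : volume (Bn n) < ⊤ :=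
  (measure_mono Bn_sub).trans_lt (isCompact_closedBall (0 : V n) 1).measure_lt_top

theorem gauss (n : ℕ) : ∃ C : ℝ, 0 ≤ C ∧ ∀ τ : ℝ, 0 < τ →
    IntegrableOn (fun z : VV n => gs τ (z.1 - z.2)) (Un n) ∧
    ∫ z in Un n, gs τ (z.1 - z.2) ≤ C / √τ ^ (n + 4) := by
  refine ⟨(∫ q : V n, gs 1 q) * (volume (Bn n)).toReal,
    mul_nonneg (integral_nonneg fun q => gs_nonneg _ _) ENNReal.toReal_nonneg, fun τ hτ => ?_⟩
  obtain ⟨h1, h2⟩ := integral_gs (n := n) hτ
  have h3 : Integrable ((Bn n).indicator fun _ : V n => (1 : ℝ)) := by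
    rw [integrable_indicator_iff meas_Bn]
    exact integrableOn_const vol_Bn.ne
  have h4 : Integrable (fun z : VV n => gs τ z.1 * (Bn n).indicator (fun _ => (1 : ℝ)) z.2) :=
    h1.mul_prod h3
  have h5 : ∫ z : VV n, gs τ z.1 * (Bn n).indicator (fun _ => (1 : ℝ)) z.2 =
      (∫ q : V n, gs τ q) * (volume (Bn n)).toReal := by
    have := integral_prod_mul (μ := (volume : Measure (V n))) (ν := (volume : Measure (V n)))
      (gs τ) ((Bn n).indicator (fun _ => (1 : ℝ)))
    rw [integral_indicator meas_Bn, setIntegral_const, smul_eq_mul, mul_one] at this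
    exact this
  have hmp : MeasurePreserving (fun z : VV n => (z.1 - z.2, z.2)) volume volume :=
    measurePreserving_sub_prod volume volume
  have h6 : Integrable (fun z : VV n => gs τ (z.1 - z.2) *
      (Bn n).indicator (fun _ => (1 : ℝ)) z.2) :=
    (hmp.integrable_comp h4.aestronglyMeasurable).mpr h4
  have h7 : ∫ z : VV n, gs τ (z.1 - z.2) * (Bn n).indicator (fun _ => (1 : ℝ)) z.2 =
      ∫ z : VV n, gs τ z.1 * (Bn n).indicator (fun _ => (1 : ℝ)) z.2 := by
    have h8 : ∫ w, gs τ w.1 * (Bn n).indicator (fun _ => (1 : ℝ)) w.2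
        ∂(Measure.map (fun z : VV n => (z.1 - z.2, z.2)) volume) = _ :=
      integral_map hmp.measurable.aemeasurable (by
        rw [hmp.map_eq]; exact h4.aestronglyMeasurable)
    rw [hmp.map_eq] at h8
    exact h8.symm
  have hU : MeasurableSet (Un n) := meas_Bn.prod meas_Bn
  have h9 : EqOn (fun z : VV n => gs τ (z.1 - z.2) * (Bn n).indicator (fun _ => (1 : ℝ)) z.2)
      (fun z : VV n => gs τ (z.1 - z.2)) (Un n) := by
    intro z hz
    have : z.2 ∈ Bn n := hz.2
    simp [this]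
  constructor
  · exact h6.integrableOn.congr_fun h9 hU
  · rw [← setIntegral_congr_fun hU h9]
    calc ∫ z in Un n, gs τ (z.1 - z.2) * (Bn n).indicator (fun _ => (1 : ℝ)) z.2
        ≤ ∫ z : VV n, gs τ (z.1 - z.2) * (Bn n).indicator (fun _ => (1 : ℝ)) z.2 :=
          setIntegral_le_integral h6 (Eventually.of_forall fun z =>
            mul_nonneg (gs_nonneg _ _) (indicator_nonneg (fun _ _ => zero_le_one) _))
      _ = _ := by rw [h7, h5, h2]; ring
      _ ≤ _ := le_rfl

end Vale.Agent.P088.HY.QM
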