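import Vale.Agent.P088.R2.H673.QM4
import Vale.Agent.P088.R2.H673.QM5

/-!
# P088, two metrics, row QM: square integrability and integration by parts
-/

open MeasureTheory Set Filter
open scoped ContDiff Matrix Topology

noncomputable section

namespace Vale.Agent.P088.HY.QM

open Vale.Agent.P088.LR

variable {n : ℕ}

theorem aesm {f : V n → ℝ} (h : ContinuousOn f (Bn n)) :
    AEStronglyMeasurable f (volume.restrict (Bn n)) := h.aestronglyMeasurable meas_Bn

theorem cdo_pd {f : V n → ℝ} (h : ContDiffOn ℝ ∞ f (Bn n)) (i : Fin n) :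
    ContDiffOn ℝ ∞ (pd i f) (Bn n) := by
  have h1 : ContDiffOn ℝ ∞ (fderiv ℝ f) (Bn n) := h.fderiv_of_isOpen (isOpen_Bn n) (by simp)
  exact h1.clm_apply contDiffOn_const

theorem cd_pd {f : V n → ℝ} (h : ContDiff ℝ ∞ f) (i : Fin n) : ContDiff ℝ ∞ (pd i f) :=
  (h.fderiv_right (m := ∞) (by simp)).clm_apply contDiff_const

theorem int_cont {f : V n → ℝ} (h : Continuous f) : IntegrableOn f (Bn n) :=
  (h.continuousOn.integrableOn_compact (isCompact_closedBall (0 : V n) 1)).mono_set Bn_sub

theorem memLp_cont {f : V n → ℝ} (h : Continuous f) : MemLp f 2 (volume.restrict (Bn n)) := by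
  rw [memLp_two_iff_integrable_sq (aesm h.continuousOn)]
  exact int_cont (h.pow 2)

/-- The gradient of a solution of the Dirichlet problem is square integrable. -/
theorem memLp_pd {w : V n → ℝ} (h : ContDiffOn ℝ ∞ w (Bn n))
    (hi : IntegrableOn (fun x => w x ^ 2 / rr x ^ 2 + ∑ i, pd i w x ^ 2) (Bn n)) (i : Fin n) :
    MemLp (pd i w) 2 (volume.restrict (Bn n)) := by
  have hm : AEStronglyMeasurable (pd i w) (volume.restrict (Bn n)) :=
    aesm (cdo_pd h i).continuousOn
  rw [memLp_two_iff_integrable_sq hm]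
  refine hi.mono' (hm.pow 2) (Eventually.of_forall fun x => ?_)
  rw [Real.norm_eq_abs, abs_of_nonneg (sq_nonneg _)]
  have h1 : pd i w x ^ 2 ≤ ∑ i, pd i w x ^ 2 :=
    Finset.single_le_sum (f := fun i => pd i w x ^ 2) (fun _ _ => sq_nonneg _) (Finset.mem_univ i)
  have h2 : 0 ≤ w x ^ 2 / rr x ^ 2 := by positivity
  linarith

theorem memLp_smul {f g : V n → ℝ} {c : ℝ} (hf : Continuous f) (hc : ∀ x, |f x| ≤ c)
    (hg : MemLp g 2 (volume.restrict (Bn n))) :
    MemLp (fun x => f x * g x) 2 (volume.restrict (Bn n)) := by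
  refine MemLp.of_le_mul (c := c) hg ((aesm hf.continuousOn).mul hg.aestronglyMeasurable)
    (Eventually.of_forall fun x => ?_)
  rw [norm_mul]
  exact mul_le_mul_of_nonneg_right (hc x) (norm_nonneg _)

theorem memLp_flux {s : MF n} (hs : SmM s) {c : ℝ} (hc : ∀ i j x, |s x i j| ≤ c)
    {w : Fin n → V n → ℝ} (h : ∀ b, ContDiffOn ℝ ∞ (w b) (Bn n))
    (hi : ∀ b, IntegrableOn (fun x => w b x ^ 2 / rr x ^ 2 + ∑ i, pd i (w b) x ^ 2) (Bn n)) :
    MemLp (fun x => ∑ a, ∑ b, s x a b * pd a (w b) x) 2 (volume.restrict (Bn n)) := by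
  refine memLp_finset_sum _ fun a _ => memLp_finset_sum _ fun b _ => ?_
  exact memLp_smul (hs a b).continuous (hc a b) (memLp_pd (h b) (hi b) a)

/-! ## Cut-off -/

/-- A cut-off. -/
def chi (x : V n) : ℝ := Real.smoothTransition (3 - 4 * sq x)

theorem cd_sq : ContDiff ℝ ∞ (sq : V n → ℝ) := by
  unfold sq
  exact ContDiff.sum fun i _ => (contDiff_apply ℝ ℝ i).pow 2

theorem cd_chi : ContDiff ℝ ∞ (chi : V n → ℝ) :=
  Real.smoothTransition.contDiff.comp (contDiff_const.sub (contDiff_const.mul cd_sq))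

theorem chi_one {x : V n} (h : sq x ≤ 1 / 2) : chi x = 1 :=
  Real.smoothTransition.one_of_one_le (by linarith)

theorem chi_zero {x : V n} (h : 3 / 4 ≤ sq x) : chi x = 0 :=
  Real.smoothTransition.zero_of_nonpos (by linarith)

theorem cd_cut {w : V n → ℝ} (hw : ContDiffOn ℝ ∞ w (Bn n)) :
    ContDiff ℝ ∞ (fun x => chi x * w x) := by
  rw [contDiff_iff_contDiffAt]
  intro x
  by_cases hx : x ∈ Bn n
  · exact cd_chi.contDiffAt.mul (hw.contDiffAt ((isOpen_Bn n).mem_nhds hx))
  · have h1 : 1 ≤ sq x := not_lt.mp hx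
    have h2 : {y : V n | 3 / 4 < sq y} ∈ 𝓝 x :=
      (isOpen_lt continuous_const continuous_sq).mem_nhds (by
        show 3 / 4 < sq x
        linarith)
    have h3 : (fun x => chi x * w x) =ᶠ[𝓝 x] fun _ => 0 := by
      filter_upwards [h2] with y hy
      rw [chi_zero (le_of_lt hy), zero_mul]
    exact contDiffAt_const.congr_of_eventuallyEq h3

theorem cs_cut (w : V n → ℝ) : HasCompactSupport (fun x => chi x * w x) := by
  refine HasCompactSupport.intro (isCompact_closedBall (0 : V n) 1) fun x hx => ?_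
  have : x ∉ Bn n := fun h => hx (Bn_sub h)
  have h1 : 1 ≤ sq x := not_lt.mp this
  rw [chi_zero (by linarith), zero_mul]

theorem Bs_sub : Bs n (1 / 2) ⊆ Bn n := by
  intro x hx
  have : sq x < (1 / 2) ^ 2 := hx
  show sq x < 1
  linarith

/-- Integration by parts against a divergence free tensor. -/
theorem ibp0 {h : MF n} (hh : SmM h) (h0 : ∀ x ∉ Bs n (1 / 2), h x = 0)
    (hd : ∀ x ∈ Bn n, ∀ j, ∑ i, pd i (fun y => h y i j) x = 0) {w : Fin n → V n → ℝ}
    (hw : ∀ j, ContDiffOn ℝ ∞ (w j) (Bn n)) :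
    ∫ p in Bs n (1 / 2), ∑ i, ∑ j, h p i j * pd i (w j) p = 0 := by
  have hcs : ∀ i j, HasCompactSupport (fun x => h x i j) := fun i j =>
    HasCompactSupport.intro (isCompact_closedBall (0 : V n) 1) fun x hx => by
      have : x ∉ Bs n (1 / 2) := fun h => hx (Bn_sub (Bs_sub h))
      rw [h0 x this]; rfl
  have hW := fun j => cd_cut (hw j)
  have hWs := fun j => cs_cut (w j)
  have e1 : ∫ p in Bs n (1 / 2), ∑ i, ∑ j, h p i j * pd i (w j) p =
      ∫ p in Bs n (1 / 2), ∑ i, ∑ j, h p i j * pd i (fun x => chi x * w j x) p := by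
    refine setIntegral_congr_fun (isOpen_Bs n _).measurableSet fun p hp => ?_
    refine Finset.sum_congr rfl fun i _ => Finset.sum_congr rfl fun j _ => ?_
    congr 1
    refine pd_congr ?_
    filter_upwards [(isOpen_Bs n _).mem_nhds hp] with y hy
    have : sq y < (1 / 2) ^ 2 := hy
    rw [chi_one (by linarith), one_mul]
  rw [e1, setIntegral_eq_integral_of_forall_compl_eq_zero fun x hx => by
    simp [h0 x hx]]
  have i1 : ∀ i j, Integrable (fun p => h p i j * pd i (fun x => chi x * w j x) p) := fun i j =>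
    ((hh i j).continuous.mul (cd_pd (hW j) i).continuous).integrable_of_hasCompactSupport
      (hcs i j).mul_right
  have i2 : ∀ i j, Integrable (fun p => pd i (fun x => h x i j) p * (chi p * w j p)) := fun i j =>
    ((cd_pd (hh i j) i).continuous.mul (hW j).continuous).integrable_of_hasCompactSupport
      (hWs j).mul_left
  have i3 : ∀ i j, Integrable (fun p => h p i j * (chi p * w j p)) := fun i j =>
    ((hh i j).continuous.mul (hW j).continuous).integrable_of_hasCompactSupport
      (hWs j).mul_left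
  rw [integral_finset_sum _ fun i _ => integrable_finset_sum _ fun j _ => i1 i j]
  have e2 : ∀ i, ∫ p, ∑ j, h p i j * pd i (fun x => chi x * w j x) p =
      ∑ j, -∫ p, pd i (fun x => h x i j) p * (chi p * w j p) := by
    intro i
    rw [integral_finset_sum _ fun j _ => i1 i j]
    refine Finset.sum_congr rfl fun j _ => ?_
    exact integral_mul_fderiv_eq_neg_fderiv_mul_of_integrable (i2 i j) (i1 i j) (i3 i j)
      (fun x _ => ((hh i j).differentiable (by simp)).differentiableAt)
      (fun x _ => ((hW j).differentiable (by simp)).differentiableAt)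
  simp only [e2]
  have e3 : ∑ i, ∑ j, -∫ p, pd i (fun x => h x i j) p * (chi p * w j p) =
      -∫ p, ∑ i, ∑ j, pd i (fun x => h x i j) p * (chi p * w j p) := by
    rw [integral_finset_sum _ fun i _ => integrable_finset_sum _ fun j _ => i2 i j,
      ← Finset.sum_neg_distrib]
    refine Finset.sum_congr rfl fun i _ => ?_
    rw [integral_finset_sum _ fun j _ => i2 i j, Finset.sum_neg_distrib]
  rw [e3, neg_eq_zero]
  have e4 : (fun p => ∑ i, ∑ j, pd i (fun x => h x i j) p * (chi p * w j p)) = fun _ => 0 := by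
    funext p
    by_cases hp : p ∈ Bn n
    · rw [Finset.sum_comm]
      refine Finset.sum_eq_zero fun j _ => ?_
      rw [← Finset.sum_mul, hd p hp j, zero_mul]
    · have h1 : 1 ≤ sq p := not_lt.mp hp
      simp [chi_zero (show 3 / 4 ≤ sq p by linarith)]
  rw [e4, integral_zero]

theorem Bs_cl : Bs n (1 / 2) ⊆ {x : V n | sq x ≤ 1 / 4} := by
  intro x hx
  have : sq x < (1 / 2) ^ 2 := hx
  show sq x ≤ 1 / 4
  linarith

theorem int_Bs {f : V n → ℝ} (h : ContinuousOn f (Bn n)) : IntegrableOn f (Bs n (1 / 2)) := by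
  have h1 : IsClosed {x : V n | sq x ≤ 1 / 4} := isClosed_le continuous_sq continuous_const
  have h2 : {x : V n | sq x ≤ 1 / 4} ⊆ Bn n := fun x hx => by
    have : sq x ≤ 1 / 4 := hx
    show sq x < 1
    linarith
  have h3 : IsCompact {x : V n | sq x ≤ 1 / 4} :=
    (isCompact_closedBall (0 : V n) 1).of_isClosed_subset h1 (h2.trans Bn_sub)
  exact ((h.mono h2).integrableOn_compact h3).mono_set Bs_cl

end Vale.Agent.P088.HY.QM
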