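import Vale.Agent.P088.R2.H673.QM6

/-!
# P088, two metrics, row QM: local bounds near the diagonal
-/

open MeasureTheory Set Filter
open scoped ContDiff Matrix Topology

noncomputable section

namespace Vale.Agent.P088.HY.QM

open Vale.Agent.P088.LR

variable {n : ℕ}

theorem sq_le_norm (q : V n) : sq q ≤ n * ‖q‖ ^ 2 := by
  unfold sq
  calc ∑ j, q j ^ 2 ≤ ∑ _j : Fin n, ‖q‖ ^ 2 := by
        refine Finset.sum_le_sum fun j _ => ?_
        have := norm_le_pi_norm q j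
        rw [Real.norm_eq_abs] at this
        exact sq_le_sq' (by linarith [neg_abs_le (q j)]) ((le_abs_self _).trans this)
    _ = n * ‖q‖ ^ 2 := by simp

theorem sq_two (x p : V n) : sq x ≤ 2 * sq p + 2 * sq (x - p) := by
  unfold sq
  rw [Finset.mul_sum, Finset.mul_sum, ← Finset.sum_add_distrib]
  refine Finset.sum_le_sum fun j _ => ?_
  rw [Pi.sub_apply]
  nlinarith [sq_nonneg (x j - 2 * p j)]

theorem near_mem {p x : V n} {τ : ℝ} (hn : 1 ≤ n) (hp : p ∈ Bs n (1 / 2)) (hτ : 17 * (n : ℝ) ≤ τ)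
    (hx : ‖x - p‖ ≤ 2 / √τ) : x ∈ Bn n := by
  have hn' : (1 : ℝ) ≤ n := by exact_mod_cast hn
  have hτ0 : 0 < τ := by linarith
  have h1 : sq p < (1 / 2) ^ 2 := hp
  have h2 := sq_two x p
  have h3 := sq_le_norm (x - p)
  have h4 : ‖x - p‖ ^ 2 ≤ 4 / τ := by
    calc ‖x - p‖ ^ 2 ≤ (2 / √τ) ^ 2 := by gcongr
      _ = 4 / τ := by rw [div_pow, Real.sq_sqrt hτ0.le]; norm_num
  have h5 : (n : ℝ) * (4 / τ) ≤ 4 / 17 := by
    rw [← mul_div_assoc, div_le_div_iff₀ hτ0 (by norm_num)]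
    linarith
  have h6 : (n : ℝ) * ‖x - p‖ ^ 2 ≤ n * (4 / τ) := by gcongr
  show sq x < 1
  linarith

theorem ball_Un {p : V n} {τ : ℝ} (hn : 1 ≤ n) (hp : p ∈ Bs n (1 / 2)) (hτ : 17 * (n : ℝ) ≤ τ) :
    Metric.ball ((p, p) : VV n) (2 / √τ) ⊆ Un n := by
  intro z hz
  rw [mem_ball_iff_norm] at hz
  exact ⟨near_mem hn hp hτ ((norm_fst_le (z - (p, p))).trans hz.le),
    near_mem hn hp hτ ((norm_snd_le (z - (p, p))).trans hz.le)⟩

theorem Un_sub_S0 : Un n ⊆ S0 n := by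
  intro z hz
  have h1 := Bn_sub hz.1
  have h2 := Bn_sub hz.2
  rw [mem_closedBall_zero_iff] at h1 h2
  rw [S0, mem_closedBall_zero_iff, Prod.norm_def]
  exact max_le h1 h2

/-- The bounds near the diagonal. -/
theorem near_bound {R : VV n → ℝ} {M τ : ℝ} {K : ℕ} (hn : 1 ≤ n) (hK : 2 ≤ K)
    (hR : Jc K M (S0 n) R)
    (h0 : ∀ y, R (y, y) = 0) (h1 : ∀ y, fderiv ℝ R (y, y) = 0) {p : V n}
    (hp : p ∈ Bs n (1 / 2)) (hτ : 17 * (n : ℝ) ≤ τ) {z : VV n}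
    (hz : z ∈ Metric.ball ((p, p) : VV n) (2 / √τ)) {l : ℕ} (hl : l ≤ K) :
    ‖iteratedFDeriv ℝ l R z‖ ≤ 16 * M / τ * √τ ^ l := by
  have hn' : (1 : ℝ) ≤ n := by exact_mod_cast hn
  have hτ1 : 1 ≤ τ := by linarith
  have hτ0 : 0 < τ := by linarith
  have hs1 : 1 ≤ √τ := by rw [Real.one_le_sqrt]; exact hτ1
  have hs0 : 0 < √τ := by linarith
  have hS : z ∈ S0 n := Un_sub_S0 (ball_Un hn hp hτ hz)
  have hM : 0 ≤ M := (hR.2 z hS).nonneg
  have hq : ‖z.1 - z.2‖ ≤ 4 / √τ := by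
    rw [mem_ball_iff_norm] at hz
    have e1 : ‖z.1 - p‖ ≤ 2 / √τ := (norm_fst_le (z - (p, p))).trans hz.le
    have e2 : ‖z.2 - p‖ ≤ 2 / √τ := (norm_snd_le (z - (p, p))).trans hz.le
    calc ‖z.1 - z.2‖ = ‖(z.1 - p) - (z.2 - p)‖ := by congr 1; abel
      _ ≤ ‖z.1 - p‖ + ‖z.2 - p‖ := norm_sub_le _ _
      _ ≤ 2 / √τ + 2 / √τ := add_le_add e1 e2
      _ = 4 / √τ := by ring
  obtain ⟨v0, v1⟩ := vanish2 hK hR h0 h1 hS
  rcases l with _ | _ | l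
  · rw [norm_iteratedFDeriv_zero, Real.norm_eq_abs, pow_zero, mul_one]
    calc |R z| ≤ M * ‖z.1 - z.2‖ ^ 2 := v0
      _ ≤ M * (4 / √τ) ^ 2 := by gcongr
      _ = 16 * M / τ := by rw [div_pow, Real.sq_sqrt hτ0.le]; ring
  · rw [zero_add, norm_iteratedFDeriv_one, pow_one]
    calc ‖fderiv ℝ R z‖ ≤ M * ‖z.1 - z.2‖ := v1
      _ ≤ M * (4 / √τ) := by gcongr
      _ = 4 * M / τ * √τ := by
          have : τ = √τ * √τ := (Real.mul_self_sqrt hτ0.le).symm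
          field_simp
          rw [Real.sq_sqrt hτ0.le]
      _ ≤ 16 * M / τ * √τ := by gcongr; norm_num
  · have h2 : τ ≤ √τ ^ (l + 1 + 1) := by
      calc τ = √τ ^ 2 := (Real.sq_sqrt hτ0.le).symm
        _ ≤ √τ ^ (l + 1 + 1) := pow_le_pow_right₀ hs1 (by omega)
    calc ‖iteratedFDeriv ℝ (l + 1 + 1) R z‖ ≤ M := hR.2 z hS _ hl
      _ ≤ 16 * M := by linarith
      _ = 16 * M / τ * τ := by field_simp
      _ ≤ 16 * M / τ * √τ ^ (l + 1 + 1) := by gcongr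

/-- The integral bound. -/
theorem int_bound {P Q P' Q' : VV n → ℝ} {M τ C : ℝ} {K : ℕ} (hK : 2 ≤ K)
    (hP : Jc K M (S0 n) P) (hQ : Jc K M (S0 n) Q) (p0 : ∀ y, P (y, y) = 0)
    (q0 : ∀ y, Q (y, y) = 0) (p1 : ∀ y, fderiv ℝ P (y, y) = 0) (q1 : ∀ y, fderiv ℝ Q (y, y) = 0)
    (hs : ∀ z, 1 / 4 < sq z.1 → 1 / 4 < sq z.2 → P z = 0 ∧ Q z = 0)
    (eP : ∀ z ∈ Un n, P' z = P z) (eQ : ∀ z ∈ Un n, Q' z = Q z) (hτ : 1 ≤ τ)
    (hg : IntegrableOn (fun z : VV n => gs τ (z.1 - z.2)) (Un n) ∧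
      ∫ z in Un n, gs τ (z.1 - z.2) ≤ C / √τ ^ (n + 4)) :
    IntegrableOn (fun z => (rr z.1 ^ 4 * P' z ^ 2 + rr z.2 ^ 4 * Q' z ^ 2) *
      Real.exp (-(2 * τ * (uu z - 1))) / (rr z.1 * rr z.2) ^ 2) (Un n) ∧
    ∫ z in Un n, (rr z.1 ^ 4 * P' z ^ 2 + rr z.2 ^ 4 * Q' z ^ 2) *
      Real.exp (-(2 * τ * (uu z - 1))) / (rr z.1 * rr z.2) ^ 2 ≤
      1200 * M ^ 2 * (C / √τ ^ (n + 4)) := by
  have hU : MeasurableSet (Un n) := meas_Bn.prod meas_Bn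
  have hE : EqOn (fun z => (rr z.1 ^ 4 * P z ^ 2 + rr z.2 ^ 4 * Q z ^ 2) *
      Real.exp (-(2 * τ * (uu z - 1))) / (rr z.1 * rr z.2) ^ 2)
      (fun z => (rr z.1 ^ 4 * P' z ^ 2 + rr z.2 ^ 4 * Q' z ^ 2) *
      Real.exp (-(2 * τ * (uu z - 1))) / (rr z.1 * rr z.2) ^ 2) (Un n) := by
    intro z hz
    simp only [eP z hz, eQ z hz]
  have hbd : ∀ z ∈ Un n, (rr z.1 ^ 4 * P z ^ 2 + rr z.2 ^ 4 * Q z ^ 2) *
      Real.exp (-(2 * τ * (uu z - 1))) / (rr z.1 * rr z.2) ^ 2 ≤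
      1200 * M ^ 2 * gs τ (z.1 - z.2) := by
    intro z hz
    have hx := rr_pos hz.1
    have hy := rr_pos hz.2
    by_cases h : sq z.1 ≤ 1 / 4 ∨ sq z.2 ≤ 1 / 4
    · have hw := weight_le hτ hz h
      have hS := Un_sub_S0 hz
      have hM : 0 ≤ M := (hP.2 z hS).nonneg
      have a1 := (vanish2 hK hP p0 p1 hS).1
      have a2 := (vanish2 hK hQ q0 q1 hS).1
      have a3 := norm_sq_le (z.1 - z.2)
      have b1 : |P z| ≤ M * sq (z.1 - z.2) := a1.trans (by gcongr)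
      have b2 : |Q z| ≤ M * sq (z.1 - z.2) := a2.trans (by gcongr)
      have c1 : P z ^ 2 ≤ (M * sq (z.1 - z.2)) ^ 2 := by
        rw [← sq_abs]; gcongr
      have c2 : Q z ^ 2 ≤ (M * sq (z.1 - z.2)) ^ 2 := by
        rw [← sq_abs]; gcongr
      calc (rr z.1 ^ 4 * P z ^ 2 + rr z.2 ^ 4 * Q z ^ 2) *
            Real.exp (-(2 * τ * (uu z - 1))) / (rr z.1 * rr z.2) ^ 2
          ≤ (rr z.1 ^ 4 * (M * sq (z.1 - z.2)) ^ 2 + rr z.2 ^ 4 * (M * sq (z.1 - z.2)) ^ 2) *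
            Real.exp (-(2 * τ * (uu z - 1))) / (rr z.1 * rr z.2) ^ 2 := by gcongr
        _ = (M * sq (z.1 - z.2)) ^ 2 * ((rr z.1 ^ 4 + rr z.2 ^ 4) *
            Real.exp (-(2 * τ * (uu z - 1))) / (rr z.1 * rr z.2) ^ 2) := by ring
        _ ≤ (M * sq (z.1 - z.2)) ^ 2 * (1200 * Real.exp (-(2 * τ * sq (z.1 - z.2)))) := by gcongr
        _ = 1200 * M ^ 2 * gs τ (z.1 - z.2) := by unfold gs; ring
    · push Not at h
      obtain ⟨h1, h2⟩ := hs z h.1 h.2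
      rw [h1, h2]
      have : 0 ≤ 1200 * M ^ 2 * gs τ (z.1 - z.2) := by
        have := gs_nonneg τ (z.1 - z.2); positivity
      simpa using this
  have hnn : ∀ z, 0 ≤ (rr z.1 ^ 4 * P z ^ 2 + rr z.2 ^ 4 * Q z ^ 2) *
      Real.exp (-(2 * τ * (uu z - 1))) / (rr z.1 * rr z.2) ^ 2 := fun z => by positivity
  have hrr : Continuous (rr : V n → ℝ) := by
    unfold rr
    have := continuous_sq (n := n)
    fun_prop
  have huu : ContinuousOn (uu : VV n → ℝ) (Un n) := by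
    unfold uu
    refine continuousOn_const.add (ContinuousOn.div ?_ ?_ ?_)
    · exact (continuous_sq.comp (continuous_fst.sub continuous_snd)).continuousOn
    · exact ((continuous_const.mul (hrr.comp continuous_fst)).mul
        (hrr.comp continuous_snd)).continuousOn
    · intro z hz
      have hx := rr_pos hz.1
      have hy := rr_pos hz.2
      positivity
  have hc : ContinuousOn (fun z => (rr z.1 ^ 4 * P z ^ 2 + rr z.2 ^ 4 * Q z ^ 2) *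
      Real.exp (-(2 * τ * (uu z - 1))) / (rr z.1 * rr z.2) ^ 2) (Un n) := by
    have hPc := hP.1.continuous
    have hQc := hQ.1.continuous
    refine ContinuousOn.div (ContinuousOn.mul ?_ ?_) ?_ ?_
    · exact (((hrr.comp continuous_fst).pow 4).mul (hPc.pow 2)).add
        (((hrr.comp continuous_snd).pow 4).mul (hQc.pow 2)) |>.continuousOn
    · exact Real.continuous_exp.comp_continuousOn
        ((continuousOn_const.mul (huu.sub continuousOn_const)).neg)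
    · exact (((hrr.comp continuous_fst).mul (hrr.comp continuous_snd)).pow 2).continuousOn
    · intro z hz
      have hx := rr_pos hz.1
      have hy := rr_pos hz.2
      positivity
  have hi : IntegrableOn (fun z => (rr z.1 ^ 4 * P z ^ 2 + rr z.2 ^ 4 * Q z ^ 2) *
      Real.exp (-(2 * τ * (uu z - 1))) / (rr z.1 * rr z.2) ^ 2) (Un n) := by
    refine (hg.1.const_mul (1200 * M ^ 2)).mono' (hc.aestronglyMeasurable hU) ?_
    refine (ae_restrict_iff' hU).mpr (Eventually.of_forall fun z hz => ?_)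
    rw [Real.norm_eq_abs, abs_of_nonneg (hnn z)]
    exact hbd z hz
  refine ⟨hi.congr_fun hE hU, ?_⟩
  rw [← setIntegral_congr_fun hU hE]
  calc ∫ z in Un n, (rr z.1 ^ 4 * P z ^ 2 + rr z.2 ^ 4 * Q z ^ 2) *
      Real.exp (-(2 * τ * (uu z - 1))) / (rr z.1 * rr z.2) ^ 2
      ≤ ∫ z in Un n, 1200 * M ^ 2 * gs τ (z.1 - z.2) :=
        setIntegral_mono_on hi (hg.1.const_mul (1200 * M ^ 2)) hU hbd
    _ = 1200 * M ^ 2 * ∫ z in Un n, gs τ (z.1 - z.2) := integral_const_mul _ _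
    _ ≤ 1200 * M ^ 2 * (C / √τ ^ (n + 4)) := by
        have := hg.2
        gcongr

end Vale.Agent.P088.HY.QM
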