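import Vale.Agent.P088.R2.H673.QM7

/-!
# P088, two metrics, row QM: the approximate solution
-/

open MeasureTheory Set Filter
open scoped ContDiff Matrix Topology

noncomputable section

namespace Vale.Agent.P088.HY

open Vale.Agent.P088.LR QM

variable {n : ℕ}

theorem QM.TS_mono {K K' : ℕ} {ε ε' : ℝ} {s : MF n} (h : TS n K ε s) (hK : K' ≤ K) (hε : ε ≤ ε') :
    TS n K' ε' s :=
  ⟨h.sm, h.sy, fun i j l hl x => (h.cl i j l (hl.trans hK) x).trans hε, h.dv⟩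

theorem QM.ipm_symm_tfp {s h : MF n} {x : V n} (hs : (s x).IsSymm) (hh : (h x).IsSymm) :
    (tfp s h x).IsSymm := by
  unfold tfp
  exact hh.sub (hs.smul _)

theorem QM.abs_s_le {K : ℕ} {ε : ℝ} {s : MF n} (hs : TS n K ε s) (hε : ε ≤ 1) (i j : Fin n)
    (x : V n) : |s x i j| ≤ 2 := ((jc_s hs hε i j univ).2 x (mem_univ x)).abs

theorem QM.two_le : (2 : WithTop ℕ∞) ≤ ∞ := by
  have : ((2 : ℕ∞) : WithTop ℕ∞) ≤ ((⊤ : ℕ∞) : WithTop ℕ∞) := WithTop.coe_le_coe.mpr le_top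
  exact this

theorem QM.pd2_zero {f : V n → ℝ} {x : V n} (h : f =ᶠ[𝓝 x] fun _ => 0) (i j : Fin n) :
    pd i (pd j f) x = 0 := by
  have h1 : pd j f =ᶠ[𝓝 x] fun _ => 0 := by
    filter_upwards [h.eventuallyEq_nhds] with y hy
    rw [pd_congr hy, pd_const]
  rw [pd_congr h1, pd_const]

theorem QM.not_Bs {x : V n} (h : 1 / 4 < sq x) : x ∉ Bs n (1 / 2) := fun h' => by
  have : sq x < (1 / 2) ^ 2 := h'
  linarith

/-- **Row QM.** -/
theorem rowQM (hDIR : RowDIR) : RowQM := by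
  intro n K₀ hn
  have hn1 : 1 ≤ n := by omega
  obtain ⟨Cd, εd, hCd, hεd, hdir⟩ := hDIR n hn
  obtain ⟨K, hK2, hKK⟩ : ∃ K, 2 ≤ K ∧ K₀ ≤ K := ⟨max K₀ 2, le_max_right _ _, le_max_left _ _⟩
  obtain ⟨CT, hCT, hT⟩ := exists_tfp n (K + 2) hn1
  obtain ⟨CR, hCR, hR⟩ := exists_R n K
  obtain ⟨Cg, hCg, hg⟩ := gauss n
  have hn' : (3 : ℝ) ≤ n := by exact_mod_cast hn
  refine ⟨K + 2, 1200 * (CR * CT) ^ 2 * Cg + 32 * (CR * CT) + 1, min εd (1 / 2), 17 * n,
    by positivity, lt_min hεd (by norm_num), by positivity, ?_⟩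
  intro s₁ s₂ hs₁ hs₂ hoff H τ hD hτ
  have hε1 : min εd (1 / 2 : ℝ) ≤ εd := min_le_left _ _
  have hε2 : min εd (1 / 2 : ℝ) ≤ 1 / 2 := min_le_right _ _
  have hε3 : min εd (1 / 2 : ℝ) ≤ 1 := hε2.trans (by norm_num)
  have hτ1 : 1 ≤ τ := by linarith
  have hτ0 : 0 < τ := by linarith
  have hH : 0 ≤ H := (norm_nonneg _).trans (hD ⟨0, hn1⟩ ⟨0, hn1⟩ 0 (Nat.zero_le _) 0)
  have d₁ := TS_mono hs₁ (by omega : 1 ≤ K + 2) hε1
  have d₂ := TS_mono hs₂ (by omega : 1 ≤ K + 2) hε1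
  -- the quadratic part
  obtain ⟨h, hh⟩ : ∃ h : MF n, h = fun x => s₂ x - s₁ x := ⟨_, rfl⟩
  obtain ⟨T, hTd⟩ : ∃ T : MF n, T = tfp s₁ h := ⟨_, rfl⟩
  obtain ⟨k2, hk2⟩ : ∃ k2 : MF n, k2 = fun x => -T x := ⟨_, rfl⟩
  have jT : ∀ i j, Jc (K + 2) (CT * H) univ (fun x => T x i j) := by
    rw [hTd, hh]
    exact hT _ H s₁ s₂ hε2 hs₁ hs₂ hD
  have jk : ∀ i j, Jc (K + 2) (CT * H) univ (fun x => k2 x i j) := by
    intro i j
    rw [hk2]
    exact (jT i j).neg
  have smk : SmM k2 := fun i j => (jk i j).1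
  have symh : ∀ x, (h x).IsSymm := fun x => by rw [hh]; exact (hs₂.sy x).sub (hs₁.sy x)
  have symT : ∀ x, (T x).IsSymm := fun x => by
    rw [hTd]; exact ipm_symm_tfp (hs₁.sy x) (symh x)
  have symk : ∀ x, (k2 x).IsSymm := fun x => by rw [hk2]; exact (symT x).neg
  have h_off : ∀ x ∉ Bs n (1 / 2), h x = 0 := fun x hx => by
    rw [hh]; simp only [hoff x hx, sub_self]
  have k_off : ∀ x ∉ Bs n (1 / 2), k2 x = 0 := fun x hx => by
    have e1 : ipm s₁ h x = 0 := by simp [ipm, h_off x hx]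
    rw [hk2, hTd]
    simp [tfp, h_off x hx, e1]
  have ipk : ∀ x, ipm s₁ k2 x = 0 := by
    intro x
    have e1 : ipm s₁ T x = 0 := by
      rw [hTd]
      refine ipm_tfp (ne_of_gt ?_)
      exact lt_of_lt_of_le (by norm_num) (ipm_pos hn1 hs₁ hε2 x)
    have e2 : ipm s₁ k2 x = -ipm s₁ T x := by
      rw [hk2]
      simp [ipm, Finset.sum_neg_distrib]
    rw [e2, e1, neg_zero]
  -- the linear parts
  have G1 : ∀ l, ContDiff ℝ ∞ (fun y => 2 * ∑ a, ∑ b, s₂ y a b * pd a (fun y => k2 y b l) y) :=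
    fun l => contDiff_const.mul (ContDiff.sum fun a _ => ContDiff.sum fun b _ =>
      (hs₂.sm a b).mul (cd_pd (smk b l) a))
  have P1 := fun l => hdir s₂ d₂ _ (G1 l).contDiffOn (int_cont ((G1 l).continuous.pow 2))
  choose k1 c1 e1 i1 b1 using P1
  have G1' : ∀ l, ContDiff ℝ ∞ (fun x => -∑ i, ∑ j, pd l (fun x => s₁ x i j) x * k2 x i j) :=
    fun l => (ContDiff.sum fun i _ => ContDiff.sum fun j _ =>
      (cd_pd (hs₁.sm i j) l).mul (smk i j)).neg
  have P1' := fun l => hdir s₁ d₁ _ (G1' l).contDiffOn (int_cont ((G1' l).continuous.pow 2))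
  choose k1' c1' e1' i1' b1' using P1'
  -- the constant parts
  have flux : ∀ (s : MF n), SmM s → ∀ w : Fin n → V n → ℝ, (∀ b, ContDiffOn ℝ ∞ (w b) (Bn n)) →
      ContDiffOn ℝ ∞ (fun x => ∑ a, ∑ b, s x a b * pd a (w b) x) (Bn n) := fun s hs w hw =>
    ContDiffOn.sum fun a _ => ContDiffOn.sum fun b _ => (hs a b).contDiffOn.mul (cdo_pd (hw b) a)
  have ipc : ContDiff ℝ ∞ (ipm s₂ k2) := ContDiff.sum fun a _ => ContDiff.sum fun b _ =>
    (hs₂.sm a b).mul (smk a b)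
  have G0 : ContDiffOn ℝ ∞ (fun y => -ipm s₂ k2 y + 2 * ∑ a, ∑ b, s₂ y a b * pd a (k1 b) y)
      (Bn n) := ipc.neg.contDiffOn.add (contDiffOn_const.mul (flux s₂ hs₂.sm k1 c1))
  have L0 : MemLp (fun y => -ipm s₂ k2 y + 2 * ∑ a, ∑ b, s₂ y a b * pd a (k1 b) y) 2
      (volume.restrict (Bn n)) :=
    (memLp_cont ipc.continuous).neg.add
      ((memLp_flux hs₂.sm (abs_s_le hs₂ hε3) c1 i1).const_mul 2)
  obtain ⟨k0, c0, e0, i0, b0⟩ := hdir s₂ d₂ _ G0
    ((memLp_two_iff_integrable_sq L0.aestronglyMeasurable).mp L0)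
  have G0' : ContDiffOn ℝ ∞ (fun x => -(2 * ∑ a, ∑ b, s₁ x a b * pd a (k1' b) x))
      (Bn n) := (contDiffOn_const.mul (flux s₁ hs₁.sm k1' c1')).neg
  have L0' : MemLp (fun x => -(2 * ∑ a, ∑ b, s₁ x a b * pd a (k1' b) x)) 2
      (volume.restrict (Bn n)) :=
    ((memLp_flux hs₁.sm (abs_s_le hs₁ hε3) c1' i1').const_mul 2).neg
  obtain ⟨k0', c0', e0', i0', b0'⟩ := hdir s₁ d₁ _ G0'
    ((memLp_two_iff_integrable_sq L0'.aestronglyMeasurable).mp L0')
  -- residuals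
  have ck := cdo_kk smk c1 c0 c1' c0'
  have at2 : ∀ {f : V n → ℝ} {x : V n}, ContDiffOn ℝ ∞ f (Bn n) → x ∈ Bn n →
      ContDiffAt ℝ 2 f x := fun hf hx =>
    (hf.contDiffAt ((isOpen_Bn n).mem_nhds hx)).of_le two_le
  have at2' : ∀ {z : VV n}, z ∈ Un n → ContDiffAt ℝ 2 (kk k2 k1 k0 k1' k0') z := fun hz =>
    (ck.contDiffAt ((isOpen_Un n).mem_nhds hz)).of_le two_le
  have rx : ∀ z ∈ Un n, Lx s₁ (kk k2 k1 k0 k1' k0') z = Rx s₁ k2 z := by
    intro z hz
    rw [Lx_eq s₁ (at2' hz)]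
    exact Lv_kk_x (hs₁.sy _) (fun l => at2 (c1' l) hz.1) (at2 c0' hz.1)
      (fun l => e1' l _ hz.1) (e0' _ hz.1)
  have ry : ∀ z ∈ Un n, Ly s₂ (kk k2 k1 k0 k1' k0') z = Ry s₂ k2 z := by
    intro z hz
    rw [Ly_eq s₂ (at2' hz)]
    exact Lv_kk_y (hs₂.sy _) symk (fun i j => at2 (smk i j).contDiffOn hz.2)
      (fun l => at2 (c1 l) hz.2) (at2 c0 hz.2) (fun l => e1 l _ hz.2) (e0 _ hz.2)
  have hCTH : 0 ≤ CT * H := mul_nonneg hCT hH
  have JP : Jc K (CR * (CT * H)) (S0 n) (Rx s₁ k2) := (hR _ s₁ k2 hCTH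
    (fun i j => (jc_s hs₁ hε3 i j univ).ord (by omega)) jk).1
  have JQ : Jc K (CR * (CT * H)) (S0 n) (Ry s₂ k2) := (hR _ s₂ k2 hCTH
    (fun i j => (jc_s hs₂ hε3 i j univ).ord (by omega)) jk).2
  have p1 := fderiv_Rx_diag hs₁.sm smk ipk
  have q1 := fderiv_Ry_diag hs₂.sm smk
  refine ⟨kk k2 k1 k0 k1' k0', ck, ?_⟩
  have hIB := int_bound hK2 JP JQ (Rx_diag ipk) Ry_diag p1 q1 (fun z h1 h2 => by
    constructor
    · simp [Rx, k_off _ (not_Bs h1), k_off _ (not_Bs h2)]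
    · have e : ∀ a b i j, pd a (pd b (fun y => k2 y i j)) z.2 = 0 := fun a b i j => by
        refine pd2_zero ?_ a b
        filter_upwards [(isOpen_lt continuous_const continuous_sq).mem_nhds h2] with y hy
        rw [k_off y (not_Bs hy)]
        rfl
      simp [Ry, e]) rx ry hτ1 (hg τ hτ0)
  refine ⟨hIB.1, hIB.2.trans ?_, ?_, ?_⟩
  · have hs0 : 0 < √τ := Real.sqrt_pos.mpr hτ0
    have : 1200 * (CR * (CT * H)) ^ 2 * (Cg / √τ ^ (n + 4)) =
        (1200 * (CR * CT) ^ 2 * Cg) * H ^ 2 / √τ ^ (n + 4) := by ring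
    rw [this]
    gcongr
    have : 0 ≤ CR * CT := mul_nonneg hCR hCT
    linarith
  · intro p hp
    refine ⟨ball_Un hn1 hp hτ, fun l hl z hz => ?_⟩
    have hU := ball_Un hn1 hp hτ hz
    have hev : (fun z => Lx s₁ (kk k2 k1 k0 k1' k0') z + Ly s₂ (kk k2 k1 k0 k1' k0') z) =ᶠ[𝓝 z]
        fun z => Rx s₁ k2 z + Ry s₂ k2 z := by
      filter_upwards [(isOpen_Un n).mem_nhds hU] with w hw
      rw [rx w hw, ry w hw]
    rw [(Filter.EventuallyEq.iteratedFDeriv ℝ hev l).eq_of_nhds]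
    have JS := JP.add JQ
    have hb := near_bound hn1 hK2 JS (fun y => by rw [Rx_diag ipk, Ry_diag, add_zero])
      (fun y => by
        rw [fderiv_fun_add ((JP.1.differentiable (by simp)).differentiableAt)
          ((JQ.1.differentiable (by simp)).differentiableAt), p1, q1, add_zero]) hp hτ hz
      (hl.trans hKK)
    refine hb.trans ?_
    have h1 : 16 * (CR * (CT * H) + CR * (CT * H)) ≤
        (1200 * (CR * CT) ^ 2 * Cg + 32 * (CR * CT) + 1) * H := by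
      have e1 : 0 ≤ 1200 * (CR * CT) ^ 2 * Cg * H := by positivity
      nlinarith
    gcongr
  · have hsmh : SmM h := fun i j => by
      rw [hh]; exact (hs₂.sm i j).sub (hs₁.sm i j)
    have hdv : ∀ x ∈ Bn n, ∀ j, ∑ i, pd i (fun y => h y i j) x = 0 := by
      intro x hx j
      have e : ∀ i, pd i (fun y => h y i j) x = pd i (fun y => s₂ y i j) x -
          pd i (fun y => s₁ y i j) x := by
        intro i
        rw [hh]
        unfold pd
        simp only [Matrix.sub_apply]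
        rw [fderiv_fun_sub ((hs₂.sm i j).differentiable (by simp)).differentiableAt
          ((hs₁.sm i j).differentiable (by simp)).differentiableAt]
        rfl
      simp only [e, Finset.sum_sub_distrib, hs₂.dv x hx j, hs₁.dv x hx j, sub_zero]
    have z1 := ibp0 hsmh h_off hdv c1
    have z2 := ibp0 hsmh h_off hdv c1'
    have hmx : ∀ p ∈ Bs n (1 / 2), ∑ i, ∑ j, (s₂ p i j - s₁ p i j) *
        dx i (dy j (kk k2 k1 k0 k1' k0')) (p, p) =
        ∑ i, ∑ j, (s₂ p i j - s₁ p i j) * tfp s₁ (fun x => s₂ x - s₁ x) p i j +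
        (∑ i, ∑ j, h p i j * pd i (k1 j) p - ∑ i, ∑ j, h p i j * pd i (k1' j) p) := by
      intro p hp
      have hpB := Bs_sub hp
      have e : ∀ i j, dx i (dy j (kk k2 k1 k0 k1' k0')) (p, p) =
          T p i j + pd j (k1 i) p - pd i (k1' j) p := by
        intro i j
        rw [mx_kk (symk p) (fun i j => at2 (smk i j).contDiffOn hpB) (fun l => at2 (c1 l) hpB)
          (at2 c0 hpB) (fun l => at2 (c1' l) hpB) (at2 c0' hpB), hk2]
        simp
      have e2 : ∑ i, ∑ j, h p i j * pd i (k1 j) p = ∑ i, ∑ j, h p i j * pd j (k1 i) p := by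
        rw [Finset.sum_comm]
        refine Finset.sum_congr rfl fun i _ => Finset.sum_congr rfl fun j _ => ?_
        rw [(symh p).apply]
      rw [e2]
      simp only [e]
      rw [← hh, ← hTd]
      simp only [← Finset.sum_sub_distrib, ← Finset.sum_add_distrib]
      refine Finset.sum_congr rfl fun i _ => Finset.sum_congr rfl fun j _ => ?_
      have : h p i j = s₂ p i j - s₁ p i j := by rw [hh]; rfl
      rw [this]
      ring
    rw [setIntegral_congr_fun (isOpen_Bs n _).measurableSet hmx]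
    have I1 : IntegrableOn (fun p => ∑ i, ∑ j, (s₂ p i j - s₁ p i j) *
        tfp s₁ (fun x => s₂ x - s₁ x) p i j) (Bs n (1 / 2)) := by
      refine int_Bs (Continuous.continuousOn ?_)
      refine continuous_finset_sum _ fun i _ => continuous_finset_sum _ fun j _ => ?_
      have := (jT i j).1.continuous
      rw [hTd, hh] at this
      exact ((hs₂.sm i j).continuous.sub (hs₁.sm i j).continuous).mul this
    have I2 : ∀ w : Fin n → V n → ℝ, (∀ j, ContDiffOn ℝ ∞ (w j) (Bn n)) →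
        IntegrableOn (fun p => ∑ i, ∑ j, h p i j * pd i (w j) p) (Bs n (1 / 2)) := by
      intro w hw
      refine int_Bs ?_
      refine continuousOn_finset_sum _ fun i _ => continuousOn_finset_sum _ fun j _ => ?_
      exact (hsmh i j).continuous.continuousOn.mul (cdo_pd (hw j) i).continuousOn
    have I3 : IntegrableOn (fun p => ∑ i, ∑ j, h p i j * pd i (k1 j) p -
        ∑ i, ∑ j, h p i j * pd i (k1' j) p) (Bs n (1 / 2)) := (I2 k1 c1).sub (I2 k1' c1')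
    rw [integral_add I1 I3, integral_sub (I2 k1 c1) (I2 k1' c1'), z1, z2, sub_zero, add_zero]

end Vale.Agent.P088.HY
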